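import Vale.Agent.P263.TI.Defs

/-!
P263, block E9 (helper387): from the cohomology `E = H(K)` of the cofibre of the transfer to the
cocycle `Psi` and the functional `Phi` of section I.

`EData T n d`: graded space `E`, squares `Sq q j : E q → E j` (index free, `Sq^(j-q)`), projection
`p q : E q → H^q(BW_n)`. Everything is required only where it is used: `p` onto for `q ≤ d`; the
squares into degree `d + 1` kill the kernel of `p` in degrees `≤ d`; the Bullett-Macdonald relations
with values in `E (d + 1)`. Neither `Sq^0 = 1` on `E (d + 1)` nor the kernel of `p (d + 1)` matters.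
-/

namespace Vale.Agent.P263.TI

open Finset Polynomial Vale.Agent.P263.LZ Vale.Agent.P263.EX Vale.Agent.P263.EX.GE

/-- The cohomology of the cofibre of the transfer, as far as it is used. -/
structure EData (T : Tower) (n d : ℕ) where
  /-- `E q = H^q(K)` -/
  E : ℕ → Type
  [grp : ∀ q, AddCommGroup (E q)]
  [mod : ∀ q, Module (ZMod 2) (E q)]
  /-- `Sq q j = Sq^(j-q)` -/
  Sq : ∀ q j : ℕ, E q →ₗ[ZMod 2] E j
  /-- the restriction to the covering of shape `n` -/
  p : ∀ q, E q →ₗ[ZMod 2] T.H n q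
  p_surj : ∀ q, q ≤ d → Function.Surjective (p q)
  p_sq : ∀ (a q q' : ℕ) (h : q + a = q') (x : E q), q' ≤ d →
    p q' (Sq q q' x) = T.sq n a q q' h (p q x)
  sq_self : ∀ (q : ℕ) (x : E q), q ≤ d → p q (Sq q q x) = p q x
  sq_ker : ∀ (q : ℕ) (x : E q), q ≤ d → p q x = 0 → Sq q (d + 1) x = 0
  /-- the Bullett-Macdonald relations with values in degree `d + 1` -/
  bm : ∀ (q M : ℕ) (_ : q + M = d + 1) (x : E q) (e : ℕ), 1 ≤ M →
    ∑ a ∈ range (M + 1), (BM.wt (ZMod 2) a (M - a)).coeff e •
      Sq (q + (M - a)) (d + 1) (Sq q (q + (M - a)) x) = 0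

attribute [instance] EData.grp EData.mod

namespace EData

variable {T : Tower} {n d : ℕ} (D : EData T n d)

lemma sq_congr {q : ℕ} (hq : q ≤ d) {x x' : D.E q} (h : D.p q x = D.p q x') :
    D.Sq q (d + 1) x = D.Sq q (d + 1) x' := by
  rw [← sub_eq_zero, ← map_sub]
  exact D.sq_ker q _ hq (by rw [map_sub, h, sub_self])

/-- a linear section of `p q` -/
noncomputable def sec (q : ℕ) (hq : q ≤ d) : T.H n q →ₗ[ZMod 2] D.E q :=
  (LinearMap.exists_rightInverse_of_surjective (D.p q)
    (LinearMap.range_eq_top.2 (D.p_surj q hq))).choose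

lemma p_sec (q : ℕ) (hq : q ≤ d) (y : T.H n q) : D.p q (D.sec q hq y) = y := by
  have h := (LinearMap.exists_rightInverse_of_surjective (D.p q)
    (LinearMap.range_eq_top.2 (D.p_surj q hq))).choose_spec
  exact LinearMap.congr_fun h y

lemma coeff_wt_zero (a b : ℕ) : (BM.wt (ZMod 2) a b).coeff 0 =
    (if b = 0 then 1 else 0) + (if a = 0 then 1 else 0) := by
  rw [BM.wt, coeff_zero_eq_eval_zero]
  simp only [eval_pow, eval_add, eval_mul, eval_one, eval_X, add_zero, one_pow, one_mul, mul_one]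
  congr 1
  · rcases Nat.eq_zero_or_pos b with h | h
    · subst h; simp
    · rw [if_neg (by omega), zero_pow (by omega)]
  · rcases Nat.eq_zero_or_pos a with h | h
    · subst h; simp
    · rw [if_neg (by omega), zero_pow (by omega)]

/-- `Sq^0 Sq^M = Sq^M` with values in degree `d + 1`. -/
lemma sq_zero_comm {q M : ℕ} (h : q + M = d + 1) (hM : 1 ≤ M) (x : D.E q) :
    D.Sq (d + 1) (d + 1) (D.Sq q (d + 1) x) = D.Sq q (d + 1) x := by
  have h1 := D.bm q M h x 0 hM
  rw [sum_eq_add (0 : ℕ) M (by omega)] at h1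
  · rw [coeff_wt_zero, coeff_wt_zero, if_neg (by omega), if_pos rfl, if_pos (by omega),
      if_neg (by omega), zero_add, add_zero, one_smul, one_smul, Nat.sub_zero, Nat.sub_self,
      add_zero, h] at h1
    have h2 : D.Sq q (d + 1) (D.Sq q q x) = D.Sq q (d + 1) x :=
      D.sq_congr (by omega) (D.sq_self q x (by omega))
    rw [h2, add_eq_zero_iff_eq_neg] at h1
    rw [h1]
    exact ZModModule.neg_eq_self _
  · intro a ha hne
    have ha' := mem_range.mp ha
    rw [coeff_wt_zero, if_neg (by omega), if_neg hne.1, add_zero, zero_smul]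
  · intro h2; exact absurd (mem_range.mpr (by omega)) h2
  · intro h2; exact absurd (mem_range.mpr (by omega)) h2

/-- the functional `psi` -/
noncomputable def psi (lam : D.E (d + 1) →ₗ[ZMod 2] ZMod 2) (q : ℕ) :
    T.H n q →ₗ[ZMod 2] ZMod 2 :=
  if hq : q ≤ d then (lam.comp (D.Sq q (d + 1))).comp (D.sec q hq) else 0

lemma psi_p (lam : D.E (d + 1) →ₗ[ZMod 2] ZMod 2) {q : ℕ} (hq : q ≤ d) (x : D.E q) :
    D.psi lam q (D.p q x) = lam (D.Sq q (d + 1) x) := by
  rw [psi, dif_pos hq, LinearMap.comp_apply, LinearMap.comp_apply]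
  congr 1
  exact D.sq_congr hq (D.p_sec q hq _)

lemma psi_gt (lam : D.E (d + 1) →ₗ[ZMod 2] ZMod 2) {q : ℕ} (hq : d < q) (y : T.H n q) :
    D.psi lam q y = 0 := by
  rw [psi, dif_neg (by omega), LinearMap.zero_apply]

/-- **E9**: the cocycle. -/
noncomputable def toPsi (lam : D.E (d + 1) →ₗ[ZMod 2] ZMod 2) : Psi T n (d + 1) where
  psi _ q _ := D.psi lam q
  psi_zero _ y := D.psi_gt lam (by omega) y
  bm M q h y := by
    rcases Nat.eq_zero_or_pos M with hM | hM
    · subst hM
      rw [Fin.sum_univ_one, D.psi_gt lam (by omega), D.psi_gt lam (by omega), C_0, zero_mul,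
        zero_mul, add_zero]
    · obtain ⟨x, rfl⟩ := D.p_surj q (by omega) y
      rw [D.psi_p lam (by omega)]
      have key : ∀ a : Fin (M + 1), D.psi lam (q + (M - a)) (T.sq n (M - a) q (q + (M - a)) rfl
          (D.p q x)) = lam (D.Sq (q + (M - a)) (d + 1) (D.Sq q (q + (M - a)) x)) +
            if (a : ℕ) = 0 then lam (D.Sq q (d + 1) x) else 0 := by
        intro a
        have ha := a.2
        rcases Nat.eq_zero_or_pos (a : ℕ) with h0 | h0
        · rw [if_pos h0, h0, D.psi_gt lam (by omega), Nat.sub_zero, h, D.sq_zero_comm h hM]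
          exact (CharTwo.add_self_eq_zero _).symm
        · rw [if_neg (by omega), add_zero, ← D.p_sq (M - a) q (q + (M - a)) rfl x (by omega),
            D.psi_p lam (by omega)]
      rw [sum_congr rfl fun a _ => by rw [key a]]
      have h1 : ∑ a : Fin (M + 1), C (lam (D.Sq (q + (M - a)) (d + 1)
          (D.Sq q (q + (M - a)) x))) * BM.wt (ZMod 2) a (M - a) = 0 := by
        rw [Fin.sum_univ_eq_sum_range (fun a => C (lam (D.Sq (q + (M - a)) (d + 1)
          (D.Sq q (q + (M - a)) x))) * BM.wt (ZMod 2) a (M - a)) (M + 1)]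
        refine Polynomial.ext fun e => ?_
        rw [finsetSum_coeff, coeff_zero]
        have h2 := congrArg lam (D.bm q M h x e hM)
        rw [map_sum, map_zero] at h2
        rw [← h2]
        refine sum_congr rfl fun a _ => ?_
        rw [coeff_C_mul, map_smul, smul_eq_mul, mul_comm]
      simp only [C_add, add_mul, sum_add_distrib]
      rw [h1, zero_add, Fin.sum_univ_succ]
      simp only [Fin.val_zero, if_true, Fin.val_succ, Nat.succ_ne_zero, if_false, C_0, zero_mul,
        sum_const_zero, add_zero, Nat.sub_zero]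
      rw [← add_mul, ← C_add, CharTwo.add_self_eq_zero, C_0, zero_mul]

lemma toPsi_p (lam : D.E (d + 1) →ₗ[ZMod 2] ZMod 2) {a q : ℕ} (h : q + a = d + 1) (ha : 1 ≤ a)
    (x : D.E q) : (D.toPsi lam).psi a q h (D.p q x) = lam (D.Sq q (d + 1) x) :=
  D.psi_p lam (by omega) x

/-- **E9**: the cocycle and the top functional, from the relation of Lannes and Zarati. -/
theorem exists_psi_phi (phi : T.H (n + 1) d →ₗ[ZMod 2] ZMod 2) (iota : D.E (d + 1))
    (hne : iota ≠ 0)
    (lz : ∀ (j q : ℕ) (h : j + 2 * q = d) (x : D.E q),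
      D.Sq q (d + 1) x = phi (T.up n j q d h (D.p q x)) • iota) :
    ∃ (P : Psi T n (d + 1)) (F : Phi T n d P), F.phi = phi := by
  obtain ⟨lam, hlam⟩ : ∃ lam : D.E (d + 1) →ₗ[ZMod 2] ZMod 2, lam iota = 1 := by
    have h1 : ¬ ∀ f : Module.Dual (ZMod 2) (D.E (d + 1)), f iota = 0 :=
      fun h => hne ((Module.forall_dual_apply_eq_zero_iff (ZMod 2) iota).1 h)
    rw [not_forall] at h1
    obtain ⟨f, hf⟩ := h1
    exact ⟨f, (zmod2 (f iota)).resolve_left hf⟩
  refine ⟨D.toPsi lam, ⟨phi, fun j q h y => ?_⟩, rfl⟩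
  obtain ⟨x, rfl⟩ := D.p_surj q (by omega) y
  rw [D.toPsi_p lam _ (by omega), lz j q h x, map_smul, hlam, smul_eq_mul, mul_one]

end EData

end Vale.Agent.P263.TI
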