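import Vale.Agent.P263.TI.Lift

/-!
# P263, section [I]: the cocycle on the Dickson algebra
-/

namespace Vale.Agent.P263.TI

open Polynomial Vale.Agent.P263.LZ Vale.Agent.P263.EX Vale.Agent.P263.EX.GE

variable {T : Tower} {n N : ℕ}

lemma psi_congr (P : Psi T n N) (a p p' : ℕ) (h : p + a = N) (h' : p' + a = N) (x : D n) :
    P.psi a p h (L T n p x) = P.psi a p' h' (L T n p' x) := by
  obtain rfl : p = p' := by omega
  rfl

/-- the functionals of the cocycle -/
noncomputable def cocTh (P : Psi T n N) (a : ℕ) : D n →ₗ[ZMod 2] ZMod 2 :=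
  if h : a ≤ N then (P.psi a (N - a) (by omega)).comp (L T n (N - a)) else 0

lemma cocTh_eq (P : Psi T n N) {a p : ℕ} (h : p + a = N) (x : D n) :
    cocTh P a x = P.psi a p h (L T n p x) := by
  rw [cocTh, dif_pos (by omega : a ≤ N), LinearMap.comp_apply]
  exact psi_congr P a _ _ _ _ x

lemma cocTh_gt (P : Psi T n N) {a : ℕ} (h : N < a) (x : D n) : cocTh P a x = 0 := by
  rw [cocTh, dif_neg (by omega : ¬ a ≤ N), LinearMap.zero_apply]

/-- The cocycle of level one on the Dickson algebra. -/
noncomputable def cocOf (P : Psi T n N) : Coc n 1 N where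
  th := cocTh P
  th_zero := by
    refine LinearMap.ext (fun x => ?_)
    rw [cocTh_eq P (a := 0) (p := N) rfl, P.psi_zero, LinearMap.zero_apply]
  supp := by
    intro a k x hx hk
    rcases lt_or_ge N a with ha | ha
    · exact cocTh_gt P ha x
    · rw [cocTh_eq P (a := a) (p := N - a) (by omega), L_zero T hx, map_zero]
      intro h
      apply hk
      push_cast [Nat.cast_sub ha] at h
      push_cast
      linarith
  bm := by
    intro M x
    rcases le_or_gt M N with hM | hM
    · have h := P.bm M (N - M) (by omega) (L T n (N - M) x)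
      rw [Finset.sum_range, cocTh_eq P (a := M) (p := N - M) (by omega), ← h]
      congr 1
      refine Finset.sum_congr rfl (fun a _ => ?_)
      have ha := a.2
      rw [sq_L, cocTh_eq P (a := a) (p := N - M + (M - a)) (by omega)]
    · rw [cocTh_gt P hM, C_0, zero_mul, add_zero]
      refine Finset.sum_eq_zero (fun a ha => ?_)
      have ha' := Finset.mem_range.1 ha
      rcases le_or_gt a N with h | h
      · rw [cocTh_eq P (a := a) (p := N - a) (by omega), L_s_zero T n (M - a) (N - a) (by omega),
          map_zero, C_0, zero_mul]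
      · rw [cocTh_gt P h, C_0, zero_mul]

theorem cocOf_th (P : Psi T n N) {a p : ℕ} (h : p + a = N) (x : D n) :
    (cocOf P).th a x = P.psi a p h (L T n p x) := cocTh_eq P h x

end Vale.Agent.P263.TI
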