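import Vale.Agent.P263.TI.Case0
import Vale.Agent.P263.TI.Coc

/-!
P263, section I (helper387), Case 0 for the cocycle of the tower: `xi` vanishes on the multiples
of `q_0`.
-/

namespace Vale.Agent.P263.TI

open Polynomial Vale.Agent.P263.LZ Vale.Agent.P263.EX Vale.Agent.P263.EX.GE

/-- **Case 0.** -/
theorem xi_q0 {T : Tower} {n d : ℕ} (hn : 1 ≤ n) (P : Psi T n (d + 1)) (F : Phi T n d P)
    (t : Top T n d F.phi) (G : D (n + 1)) : t.xi (q (n + 1) 0 * G) = 0 := by
  refine xi_q0_of hn P F t (L T n) (L T (n + 1) d) (cocOf P) (fun _ _ h x => cocOf_th P h x)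
    (fun G => L_succ T n d G) (fun k G hG h => ?_) G
  rcases lt_or_ge k 0 with hk | hk
  · rw [hG.eq_zero_of_neg hk, map_zero, map_zero, mul_zero, map_zero]
  · obtain ⟨k, rfl⟩ := Int.eq_ofNat_of_zero_le hk
    refine r_L_hom T hG ?_
    have h2 : 1 ≤ 2 ^ (n + 1) := Nat.one_le_two_pow
    zify [h2]
    exact h

end Vale.Agent.P263.TI
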