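import Vale.Agent.P263.TI.Case2
import Vale.Agent.P263.TI.Xi

/-!
P263, section [I] (helper51): the three theorems on the top functional, unconditional forms.

`I_one` (`n = 0`, in `Case2.lean`), `I_two` (`n = 1`), `I_big` (`n ≥ 2`).
-/

namespace Vale.Agent.P263.TI

open Polynomial Vale.Agent.P263.LZ Vale.Agent.P263.EX Vale.Agent.P263.EX.GE

variable {T : Tower} {n d : ℕ}

/-- **The case `n = 1`**: `xi ≠ 0` only if `d + 2` is a power of two. -/
theorem I_two (P : Psi T 1 (d + 1)) (F : Phi T 1 d P) (t : Top T 1 d F.phi) (hxi : t.xi ≠ 0) :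
    ∃ s, d + 2 = 2 ^ (s + 1) :=
  I_two_of t (fun G => xi_q0 le_rfl P F t G) hxi

/-- **The case `n ≥ 2`**: `xi ≠ 0` only if `d = 2 c` with `c` even and `phi (P(y)) ≠ 0` for some
class `y` of degree `c`. -/
theorem I_big (hn : 2 ≤ n) (P : Psi T n (d + 1)) (F : Phi T n d P) (t : Top T n d F.phi)
    (hxi : t.xi ≠ 0) :
    ∃ c, ∃ h : 0 + 2 * c = d, Even c ∧ ∃ y : T.H n c, F.phi (T.up n 0 c d h y) ≠ 0 := by
  refine I_big_of hn P F t (fun G => xi_q0 (by omega) P F t G) (L T n) (fun k m G hG h => ?_)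
    (cocOf P) (fun _ _ h x => cocOf_th P h x) hxi
  rcases lt_or_ge k 0 with hk | hk
  · rw [hG.eq_zero_of_neg hk, map_zero, map_zero, mul_zero, map_zero]
  · obtain ⟨k, rfl⟩ := Int.eq_ofNat_of_zero_le hk
    refine r_L_hom T hG ?_
    have h2 : 1 ≤ 2 ^ n := Nat.one_le_two_pow
    zify [h2]
    exact h

end Vale.Agent.P263.TI
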