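import Vale.Agent.P263.TI.Defs

/-!
# P263, section [I]: the polynomial rings `S n`, the map `St`, homogeneous components
-/

namespace Vale.Agent.P263.TI

open Polynomial Vale.Agent.P263.LZ Vale.Agent.P263.EX Vale.Agent.P263.EX.GE

/-- induction over homogeneous polynomials -/
lemma S_ind {n : ℕ} {p : S n → Prop} (h0 : p 0) (hadd : ∀ f g, p f → p g → p (f + g))
    (hh : ∀ q f, MvPolynomial.IsHomogeneous f q → p f) (f : S n) : p f := by
  rw [← MvPolynomial.sum_homogeneousComponent f]
  refine Finset.sum_induction _ p hadd h0 (fun i _ => ?_)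
  exact hh i _ (MvPolynomial.homogeneousComponent_isHomogeneous i f)

lemma hc_of_hom {n q q' : ℕ} {f : S n} (hf : MvPolynomial.IsHomogeneous f q) :
    MvPolynomial.homogeneousComponent q' f = if q' = q then f else 0 :=
  MvPolynomial.homogeneousComponent_of_mem ((MvPolynomial.mem_homogeneousSubmodule _ _).2 hf)

lemma hc_self {n q : ℕ} {f : S n} (hf : MvPolynomial.IsHomogeneous f q) :
    MvPolynomial.homogeneousComponent q f = f := by rw [hc_of_hom hf, if_pos rfl]

lemma hc_ne {n q q' : ℕ} {f : S n} (hf : MvPolynomial.IsHomogeneous f q) (h : q' ≠ q) :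
    MvPolynomial.homogeneousComponent q' f = 0 := by rw [hc_of_hom hf, if_neg h]

lemma res_St (n : ℕ) (f : S n) : res n (St n f) = f ^ 2 := by
  have : (res n).comp (St n) = frob n := by
    refine MvPolynomial.algHom_ext (fun i => ?_)
    rw [AlgHom.comp_apply, Sta_X, map_mul, map_add, res_X_zero, res_X_succ, add_zero, frob_apply]
    ring
  exact DFunLike.congr_fun this f

lemma X_ne_zero' {n : ℕ} : (MvPolynomial.X 0 : S (n + 1)) ≠ 0 := MvPolynomial.X_ne_zero 0

/-- independence of the images of `St` over the powers of `x_0 ^ p` -/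
lemma indep {n p : ℕ} (hp : 1 ≤ p) : ∀ (m : ℕ) (g : ℕ → S n),
    ∑ i ∈ Finset.range m, ((MvPolynomial.X 0 : S (n + 1)) ^ p) ^ i * St n (g i) = 0 →
    ∀ i, i < m → g i = 0 := by
  intro m
  induction m with
  | zero => intro g _ i hi; omega
  | succ m ih =>
    intro g hg
    have h0 : g 0 = 0 := by
      have h1 := congrArg (res n) hg
      rw [map_sum, Finset.sum_range_succ', map_zero] at h1
      have h2 : ∑ k ∈ Finset.range m,
          res n (((MvPolynomial.X 0 : S (n + 1)) ^ p) ^ (k + 1) * St n (g (k + 1))) = 0 := by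
        refine Finset.sum_eq_zero (fun k _ => ?_)
        rw [map_mul, map_pow, map_pow, res_X_zero, zero_pow (by omega), zero_pow (by omega),
          zero_mul]
      rw [h2, zero_add, pow_zero, one_mul, res_St] at h1
      exact pow_eq_zero_iff (two_ne_zero) |>.1 h1
    rw [Finset.sum_range_succ', h0, map_zero, mul_zero, add_zero] at hg
    have h3 : (MvPolynomial.X 0 : S (n + 1)) ^ p *
        ∑ i ∈ Finset.range m, ((MvPolynomial.X 0 : S (n + 1)) ^ p) ^ i * St n (g (i + 1)) = 0 := by
      rw [← hg, Finset.mul_sum]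
      exact Finset.sum_congr rfl (fun i _ => by rw [pow_succ]; ring)
    have h4 := (mul_eq_zero.1 h3).resolve_left (pow_ne_zero _ X_ne_zero')
    intro i hi
    rcases i with _ | i
    · exact h0
    · exact ih (fun i => g (i + 1)) h4 i (by omega)

/-! ### homogeneity -/

lemma St_hom {n q : ℕ} {f : S n} (hf : MvPolynomial.IsHomogeneous f q) :
    MvPolynomial.IsHomogeneous (St n f) (2 * q) := by
  have hX : ∀ i : Fin n, MvPolynomial.IsHomogeneous
      (nrm (fun i => (MvPolynomial.X i : S (n + 1))) i) 2 := by
    intro i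
    have := (MvPolynomial.isHomogeneous_X (ZMod 2) i.succ).mul
      ((MvPolynomial.isHomogeneous_X (ZMod 2) i.succ).add
        (MvPolynomial.isHomogeneous_X (ZMod 2) (0 : Fin (n + 1))))
    exact this
  exact MvPolynomial.IsHomogeneous.aeval hf _ hX

lemma XSt_hom {n q : ℕ} (j : ℕ) {f : S n} (hf : MvPolynomial.IsHomogeneous f q) :
    MvPolynomial.IsHomogeneous ((MvPolynomial.X 0 : S (n + 1)) ^ j * St n f) (j + 2 * q) := by
  have h1 : MvPolynomial.IsHomogeneous ((MvPolynomial.X 0 : S (n + 1)) ^ j) j := by
    have := (MvPolynomial.isHomogeneous_X (ZMod 2) (0 : Fin (n + 1))).pow j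
    simpa using this
  exact h1.mul (St_hom hf)

lemma hc_XSt {n : ℕ} (j q q' : ℕ) (h : j + 2 * q = q') (f : S n) :
    MvPolynomial.homogeneousComponent q' ((MvPolynomial.X 0 : S (n + 1)) ^ j * St n f) =
      MvPolynomial.X 0 ^ j * St n (MvPolynomial.homogeneousComponent q f) := by
  refine S_ind (p := fun f => MvPolynomial.homogeneousComponent q'
    ((MvPolynomial.X 0 : S (n + 1)) ^ j * St n f) =
      MvPolynomial.X 0 ^ j * St n (MvPolynomial.homogeneousComponent q f)) ?_ ?_ ?_ f
  · simp
  · intro f g hf hg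
    rw [map_add, mul_add, map_add, hf, hg, map_add, map_add, mul_add]
  · intro k f hf
    rcases eq_or_ne q k with rfl | hk
    · subst h
      rw [hc_self hf, hc_self (XSt_hom j hf)]
    · rw [hc_ne hf hk, map_zero, mul_zero, hc_ne (XSt_hom j hf) (by omega)]

lemma hc_XSt_zero {n : ℕ} (j q' : ℕ) (h : ∀ q, j + 2 * q ≠ q') (f : S n) :
    MvPolynomial.homogeneousComponent q' ((MvPolynomial.X 0 : S (n + 1)) ^ j * St n f) = 0 := by
  refine S_ind (p := fun f => MvPolynomial.homogeneousComponent q'
    ((MvPolynomial.X 0 : S (n + 1)) ^ j * St n f) = 0) ?_ ?_ ?_ f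
  · simp
  · intro f g hf hg
    rw [map_add, mul_add, map_add, hf, hg, add_zero]
  · intro k f hf
    exact hc_ne (XSt_hom j hf) (fun h1 => h k h1.symm)

/-! ### the squares on `S n` -/

lemma PS_hom {n : ℕ} : ∀ (q : ℕ) (f : S n), MvPolynomial.IsHomogeneous f q → ∀ a,
    MvPolynomial.IsHomogeneous ((PS n f).coeff a) (q + a) := by
  have hmul : ∀ (q q' : ℕ) (P Q : (S n)[X]),
      (∀ a, MvPolynomial.IsHomogeneous (P.coeff a) (q + a)) →
      (∀ a, MvPolynomial.IsHomogeneous (Q.coeff a) (q' + a)) →
      ∀ a, MvPolynomial.IsHomogeneous ((P * Q).coeff a) (q + q' + a) := by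
    intro q q' P Q hP hQ a
    rw [Polynomial.coeff_mul]
    refine MvPolynomial.IsHomogeneous.sum _ _ _ (fun x hx => ?_)
    have := (hP x.1).mul (hQ x.2)
    have hx' := Finset.HasAntidiagonal.mem_antidiagonal.1 hx
    have h2 : q + x.1 + (q' + x.2) = q + q' + a := by omega
    rwa [h2] at this
  have hmon : ∀ e : Fin n →₀ ℕ, ∀ a, MvPolynomial.IsHomogeneous
      ((PS n (MvPolynomial.monomial e 1)).coeff a) (e.degree + a) := by
    intro e
    induction e using Finsupp.induction_linear with
    | zero =>
      intro a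
      have h1 : (MvPolynomial.monomial (0 : Fin n →₀ ℕ) (1 : ZMod 2) : S n) = 1 := rfl
      rw [h1, map_one, Polynomial.coeff_one]
      split_ifs with h
      · subst h; simpa using MvPolynomial.isHomogeneous_one (Fin n) (ZMod 2)
      · exact MvPolynomial.isHomogeneous_zero _ _ _
    | add e f he hf =>
      intro a
      have h1 : (MvPolynomial.monomial (e + f) (1 : ZMod 2) : S n) =
          MvPolynomial.monomial e 1 * MvPolynomial.monomial f 1 := by
        rw [MvPolynomial.monomial_mul, one_mul]
      rw [h1, map_mul]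
      have := hmul _ _ _ _ he hf a
      have h2 : (e + f).degree = e.degree + f.degree := by simp [Finsupp.degree]
      rwa [h2]
    | single i k =>
      intro a
      have h1 : (MvPolynomial.monomial (Finsupp.single i k) (1 : ZMod 2) : S n) =
          MvPolynomial.X i ^ k := (MvPolynomial.X_pow_eq_monomial).symm
      rw [h1, map_pow, Finsupp.degree_single]
      clear h1
      induction k generalizing a with
      | zero =>
        rw [pow_zero, Polynomial.coeff_one]
        split_ifs with h
        · subst h; simpa using MvPolynomial.isHomogeneous_one (Fin n) (ZMod 2)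
        · exact MvPolynomial.isHomogeneous_zero _ _ _
      | succ k ih =>
        rw [pow_succ]
        refine hmul k 1 _ _ ih ?_ a
        intro a
        rw [PS_X, Polynomial.coeff_add, Polynomial.coeff_C, Polynomial.coeff_C_mul,
          Polynomial.coeff_X]
        rcases a with _ | _ | a
        · simpa using MvPolynomial.isHomogeneous_X (ZMod 2) i
        · have := (MvPolynomial.isHomogeneous_X (ZMod 2) i).pow 2
          simpa using this
        · simpa using MvPolynomial.isHomogeneous_zero (Fin n) (ZMod 2) (1 + (a + 1 + 1))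
  intro q f hf a
  rw [MvPolynomial.as_sum f, map_sum, Polynomial.finsetSum_coeff]
  refine MvPolynomial.IsHomogeneous.sum _ _ _ (fun e he => ?_)
  have h1 : e.degree = q := by
    have := hf (MvPolynomial.mem_support_iff.1 he)
    rw [Finsupp.degree_eq_weight_one]
    exact this
  have h2 : MvPolynomial.monomial e (MvPolynomial.coeff e f) =
      MvPolynomial.coeff e f • (MvPolynomial.monomial e (1 : ZMod 2) : S n) := by
    rw [MvPolynomial.smul_monomial, smul_eq_mul, mul_one]
  rw [h2, map_smul, Polynomial.coeff_smul, ← h1]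
  exact (MvPolynomial.homogeneousSubmodule _ _ _).smul_mem _ (hmon e a)

lemma Sq_hom {n q : ℕ} (a : ℕ) {f : S n} (hf : MvPolynomial.IsHomogeneous f q) :
    MvPolynomial.IsHomogeneous (Sq n a f) (q + a) := PS_hom q f hf a

lemma hc_Sq {n : ℕ} (b q q' : ℕ) (h : q + b = q') (f : S n) :
    MvPolynomial.homogeneousComponent q' (Sq n b f) =
      Sq n b (MvPolynomial.homogeneousComponent q f) := by
  refine S_ind (p := fun f => MvPolynomial.homogeneousComponent q' (Sq n b f) =
      Sq n b (MvPolynomial.homogeneousComponent q f)) ?_ ?_ ?_ f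
  · simp
  · intro f g hf hg
    rw [map_add, map_add, hf, hg, map_add, map_add]
  · intro k f hf
    rcases eq_or_ne q k with rfl | hk
    · subst h
      rw [hc_self hf, hc_self (Sq_hom b hf)]
    · rw [hc_ne hf hk, map_zero, hc_ne (Sq_hom b hf) (by omega)]

lemma hc_Sq_zero {n : ℕ} (b q' : ℕ) (h : q' < b) (f : S n) :
    MvPolynomial.homogeneousComponent q' (Sq n b f) = 0 := by
  refine S_ind (p := fun f => MvPolynomial.homogeneousComponent q' (Sq n b f) = 0) ?_ ?_ ?_ f
  · simp
  · intro f g hf hg
    rw [map_add, map_add, hf, hg, add_zero]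
  · intro k f hf
    exact hc_ne (Sq_hom b hf) (by omega)

end Vale.Agent.P263.TI
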