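import Vale.Agent.P263.EX.BM

/-!
P263, section [I] (helper51): two facts on binomial coefficients modulo 2.
-/

namespace Vale.Agent.P263.TI

open Polynomial Vale.Agent.P263.EX

lemma choose_two_mul (n k : ℕ) : (2 * n).choose (2 * k) % 2 = n.choose k % 2 := by
  have h := Choose.choose_modEq_choose_mod_mul_choose_div_nat (n := 2 * n) (k := 2 * k) (p := 2)
  have h1 : 2 * n % 2 = 0 := by omega
  have h2 : 2 * k % 2 = 0 := by omega
  have h3 : 2 * n / 2 = n := by omega
  have h4 : 2 * k / 2 = k := by omega
  rw [h1, h2, h3, h4, Nat.choose_self, one_mul] at h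
  exact h

lemma choose_two_mul_add_one (n k : ℕ) : (2 * n + 1).choose (2 * k) % 2 = n.choose k % 2 := by
  have h := Choose.choose_modEq_choose_mod_mul_choose_div_nat (n := 2 * n + 1) (k := 2 * k) (p := 2)
  have h1 : (2 * n + 1) % 2 = 1 := by omega
  have h2 : 2 * k % 2 = 0 := by omega
  have h3 : (2 * n + 1) / 2 = n := by omega
  have h4 : 2 * k / 2 = k := by omega
  rw [h1, h2, h3, h4, Nat.choose_zero_right, one_mul] at h
  exact h

/-- If all `C(M, i)`, `0 < i < M`, are even then `M` is a power of two. -/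
theorem pow_two_of_choose : ∀ M : ℕ, 1 ≤ M → (∀ i, 0 < i → i < M → M.choose i % 2 = 0) →
    ∃ s, M = 2 ^ s := by
  intro M
  induction M using Nat.strong_induction_on with
  | _ M ih =>
    intro hM h
    rcases Nat.even_or_odd' M with ⟨k, rfl | rfl⟩
    · obtain ⟨s, hs⟩ := ih k (by omega) (by omega) (fun i hi hik => by
        rw [← choose_two_mul]; exact h (2 * i) (by omega) (by omega))
      exact ⟨s + 1, by rw [pow_succ, ← hs]; ring⟩
    · rcases Nat.eq_zero_or_pos k with hk | hk
      · exact ⟨0, by rw [hk]; norm_num⟩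
      · have := h 1 (by omega) (by omega)
        rw [Nat.choose_one_right] at this
        omega

/-- If `C(c - b, b)` is even for all `1 ≤ b ≤ c` then `c + 1` is a power of two. -/
theorem pow_two_of_choose_sub : ∀ c : ℕ, (∀ b, 1 ≤ b → b ≤ c → (c - b).choose b % 2 = 0) →
    ∃ s, c + 1 = 2 ^ s := by
  intro c
  induction c using Nat.strong_induction_on with
  | _ c ih =>
    intro h
    rcases Nat.even_or_odd' c with ⟨k, rfl | rfl⟩
    · rcases Nat.eq_zero_or_pos k with hk | hk
      · exact ⟨0, by rw [hk]; norm_num⟩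
      · have := h 1 (by omega) (by omega)
        rw [Nat.choose_one_right] at this
        omega
    · obtain ⟨s, hs⟩ := ih k (by omega) (fun b hb hbk => by
        have h1 := h (2 * b) (by omega) (by omega)
        rw [show 2 * k + 1 - 2 * b = 2 * (k - b) + 1 by omega, choose_two_mul_add_one] at h1
        exact h1)
      exact ⟨s + 1, by rw [pow_succ, ← hs]; ring⟩

/-- The Bullett-Macdonald weight `wt(M,0) + wt(0,M)` vanishes only if `M` is a power of two. -/
theorem pow_two_of_wt {M : ℕ} (hM : 1 ≤ M)
    (h : BM.wt (ZMod 2) M 0 + BM.wt (ZMod 2) 0 M = 0) : ∃ s, M = 2 ^ s := by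
  have h2 : ((1 : (ZMod 2)[X]) + X ^ M) * ((1 + X) ^ M + (1 + X ^ M)) = 0 := by
    rw [← h]
    unfold BM.wt
    have : (X : (ZMod 2)[X]) ^ M + X ^ M = 0 := CharTwo.add_self_eq_zero _
    simp only [mul_zero, pow_zero, mul_one, one_mul]
    linear_combination this
  have hne : (1 : (ZMod 2)[X]) + X ^ M ≠ 0 := by
    intro h0
    have h1 := congrArg (fun p => Polynomial.coeff p 0) h0
    simp only [coeff_add, coeff_one_zero, coeff_X_pow, coeff_zero] at h1
    rw [if_neg (by omega), add_zero] at h1
    exact one_ne_zero h1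
  have h3 := (mul_eq_zero.mp h2).resolve_left hne
  refine pow_two_of_choose M hM (fun i hi hiM => ?_)
  have h4 := congrArg (fun p => Polynomial.coeff p i) h3
  simp only [coeff_add, coeff_one, coeff_X_pow, coeff_zero] at h4
  rw [if_neg (by omega), if_neg (by omega), add_zero, add_zero, coeff_one_add_X_pow] at h4
  exact (ZMod.natCast_eq_zero_iff _ 2).mp h4 |> Nat.mod_eq_zero_of_dvd

end Vale.Agent.P263.TI
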