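import Vale.Agent.P263.EX.OfExt

/-!
P263, block I: the polynomial form of the map `z`.

`zX n : D (n+1) → (D n)[X]`, `q_i ↦ q_{i-1} + X^(2^i) q_i`. The coefficient of `X^a` of `zX n G` is
homogeneous of degree `(|G| - a) / 2`, and `z n G` is the sum of the coefficients. For a cocycle `c`
of level `m` and degree `N = 1 + |G| + m (2^(n+1) - 1)` this gives
`c.TH (z n G) = Σ_a th_{b_a} (G_a)`, `b_a = a + m + |G_a|_m + 1`, and Theorem T1 says that this sum
vanishes (`m ≥ 1`).
-/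

namespace Vale.Agent.P263.TI

open Polynomial Vale.Agent.P263.LZ Vale.Agent.P263.EX Vale.Agent.P263.EX.DS

/-- `q_i ↦ q_{i-1} + X^(2^i) q_i` -/
noncomputable def zX (n : ℕ) : D (n + 1) →ₐ[ZMod 2] (D n)[X] :=
  lift fun i : Fin (n + 1) => C (qm n i) + X ^ (2 ^ (i : ℕ)) * C (q n i)

lemma zX_gen (n : ℕ) (i : Fin (n + 1)) :
    zX n (gen i) = C (qm n i) + X ^ (2 ^ (i : ℕ)) * C (q n i) := lift_gen _ _

lemma zX_q (n i : ℕ) : zX n (q (n + 1) i) = C (qm n i) + X ^ (2 ^ i) * C (q n i) := by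
  rcases lt_trichotomy i (n + 1) with h | h | h
  · rw [q_lt h, zX_gen]
  · subst h
    rw [q_self, map_one, qm_succ, q_self, q_gt (Nat.lt_succ_self n), map_zero, mul_zero, add_zero,
      map_one]
  · rw [q_gt h, map_zero]
    obtain ⟨j, rfl⟩ : ∃ j, i = j + 1 := ⟨i - 1, by omega⟩
    rw [qm_succ, q_gt (by omega : n < j), q_gt (by omega : n < j + 1), map_zero, mul_zero, add_zero]

lemma zX_mo (n : ℕ) (e : Fin (n + 1) →₀ ℕ) :
    zX n (mo e) = ∏ i : Fin (n + 1), (C (qm n i) + X ^ (2 ^ (i : ℕ)) * C (q n i)) ^ e i := by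
  rw [mo_eq_prod, map_prod]
  exact Finset.prod_congr rfl (fun i _ => by rw [map_pow, zX_gen])

/-- `z` is the value of `zX` at `X = 1`. -/
lemma eval_zX (n : ℕ) (G : D (n + 1)) : (zX n G).eval 1 = z n G := by
  rw [← zmap_eq_z]
  refine mo_induction (P := fun G => (zX n G).eval 1 = zmap n G) ?_ ?_ ?_ G
  · simp
  · intro x y hx hy; rw [map_add, eval_add, hx, hy, map_add]
  · intro e
    rw [zX_mo, zmap_mo, eval_prod]
    refine Finset.prod_congr rfl (fun i _ => ?_)
    rw [eval_pow, eval_add, eval_C, eval_mul, eval_pow, eval_X, one_pow, one_mul, eval_C]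

/-- the coefficient of `X^a` in `zX n G` -/
noncomputable def zc (n a : ℕ) : D (n + 1) →ₗ[ZMod 2] D n where
  toFun G := (zX n G).coeff a
  map_add' x y := by rw [map_add, coeff_add]
  map_smul' r x := by rw [map_smul, coeff_smul, RingHom.id_apply]

lemma zc_apply (n a : ℕ) (G : D (n + 1)) : zc n a G = (zX n G).coeff a := rfl

/-- the coefficient of `X^a` is homogeneous of degree `(k - a)/2` -/
def WH {n : ℕ} (k : ℤ) (P : (D n)[X]) : Prop := ∀ a, ∀ e ∈ supp (P.coeff a), 2 * wtm e + a = k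

lemma WH.zero {n : ℕ} (k : ℤ) : WH k (0 : (D n)[X]) := by
  intro a e he; rw [coeff_zero, supp_zero] at he; simp at he

lemma WH.add {n : ℕ} {k : ℤ} {P Q : (D n)[X]} (hP : WH k P) (hQ : WH k Q) : WH k (P + Q) := by
  classical
  intro a e he
  rw [coeff_add] at he
  rcases Finset.mem_union.mp (supp_add _ _ he) with h | h
  · exact hP a e h
  · exact hQ a e h

lemma mem_supp_sum {n : ℕ} {ι : Type*} (s : Finset ι) (f : ι → D n) {e : Fin n →₀ ℕ}
    (he : e ∈ supp (∑ i ∈ s, f i)) : ∃ i ∈ s, e ∈ supp (f i) := by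
  classical
  induction s using Finset.induction_on with
  | empty => rw [Finset.sum_empty, supp_zero] at he; simp at he
  | insert a t ha ih =>
    rw [Finset.sum_insert ha] at he
    rcases Finset.mem_union.mp (supp_add _ _ he) with h | h
    · exact ⟨a, Finset.mem_insert_self _ _, h⟩
    · obtain ⟨i, hi, h⟩ := ih h
      exact ⟨i, Finset.mem_insert_of_mem hi, h⟩

lemma WH.mul {n : ℕ} {k l : ℤ} {P Q : (D n)[X]} (hP : WH k P) (hQ : WH l Q) :
    WH (k + l) (P * Q) := by
  intro a e he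
  rw [coeff_mul] at he
  obtain ⟨p, hp, h⟩ := mem_supp_sum _ _ he
  obtain ⟨f, hf, g, hg, rfl⟩ := supp_mul _ _ h
  have h1 := hP _ f hf
  have h2 := hQ _ g hg
  have h3 := Finset.HasAntidiagonal.mem_antidiagonal.mp hp
  have h4 : ((p.1 : ℤ) + p.2) = a := by exact_mod_cast h3
  rw [wtm_add]; linarith

lemma WH.C_hom {n : ℕ} {k : ℤ} {x : D n} (hx : Hom n k x) : WH (2 * k) (C x) := by
  intro a e he
  rw [coeff_C] at he
  split_ifs at he with h
  · subst h
    rw [hom_wtm hx he]; simp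
  · rw [supp_zero] at he; simp at he

lemma WH.X_pow_mul {n : ℕ} {k : ℤ} {P : (D n)[X]} (hP : WH k P) (b : ℕ) :
    WH (k + b) (X ^ b * P) := by
  intro a e he
  rw [coeff_X_pow_mul'] at he
  split_ifs at he with h
  · have h1 := hP _ e he
    rw [← h1]
    push_cast [Nat.cast_sub h]
    ring
  · rw [supp_zero] at he; simp at he

lemma WH.one (n : ℕ) : WH 0 (1 : (D n)[X]) := by
  have h := WH.C_hom (n := n) (k := 0) (x := 1) (Hom.one n)
  simpa using h

lemma WH.pow {n : ℕ} {k : ℤ} {P : (D n)[X]} (hP : WH k P) (b : ℕ) : WH (b * k) (P ^ b) := by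
  induction b with
  | zero => simpa using WH.one n
  | succ b ih =>
    rw [pow_succ]
    have := ih.mul hP
    rwa [show (((b + 1 : ℕ) : ℤ)) * k = b * k + k by push_cast; ring]

lemma WH.prod {n : ℕ} {ι : Type*} (s : Finset ι) (d : ι → ℤ) (P : ι → (D n)[X])
    (h : ∀ i ∈ s, WH (d i) (P i)) : WH (∑ i ∈ s, d i) (∏ i ∈ s, P i) := by
  classical
  induction s using Finset.induction_on with
  | empty => simpa using WH.one n
  | insert a t ha ih =>
    rw [Finset.sum_insert ha, Finset.prod_insert ha]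
    exact (h a (Finset.mem_insert_self _ _)).mul
      (ih (fun i hi => h i (Finset.mem_insert_of_mem hi)))

lemma WH_gen (n i : ℕ) : WH (2 ^ (n + 1) - 2 ^ i) (C (qm n i) + X ^ (2 ^ i) * C (q n i)) := by
  refine WH.add ?_ ?_
  · rcases i with _ | j
    · rw [qm_zero, map_zero]; exact WH.zero _
    · rw [qm_succ]
      have := WH.C_hom (Hom.q n j)
      rwa [show (2 : ℤ) * (2 ^ n - 2 ^ j) = 2 ^ (n + 1) - 2 ^ (j + 1) by ring] at this
  · have := (WH.C_hom (Hom.q n i)).X_pow_mul (2 ^ i)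
    rwa [show (2 : ℤ) * (2 ^ n - 2 ^ i) + ((2 ^ i : ℕ) : ℤ) = 2 ^ (n + 1) - 2 ^ i by
      push_cast; ring] at this

lemma WH_mo (n : ℕ) (e : Fin (n + 1) →₀ ℕ) : WH (wtm e) (zX n (mo e)) := by
  rw [zX_mo]
  unfold wtm
  refine WH.prod _ _ _ (fun i _ => ?_)
  exact (WH_gen n i).pow (e i)

lemma WH_zX {n : ℕ} {k : ℤ} {G : D (n + 1)} (hG : Hom (n + 1) k G) : WH k (zX n G) := by
  classical
  rw [eq_sum_mo G, map_sum]
  have h : ∀ e ∈ supp G, WH k (zX n (mo e)) := fun e he => by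
    have := WH_mo n e; rwa [hom_wtm hG he] at this
  have key : ∀ s : Finset (Fin (n + 1) →₀ ℕ), s ⊆ supp G → WH k (∑ e ∈ s, zX n (mo e)) := by
    intro s
    induction s using Finset.induction_on with
    | empty => intro _; rw [Finset.sum_empty]; exact WH.zero _
    | insert a t ha ih =>
      intro hs
      rw [Finset.sum_insert ha]
      exact (h a (hs (Finset.mem_insert_self _ _))).add
        (ih (fun x hx => hs (Finset.mem_insert_of_mem hx)))
  exact key _ (Finset.Subset.refl _)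

lemma hom_of_supp {n : ℕ} {k : ℤ} {x : D n} (h : ∀ e ∈ supp x, wtm e = k) : Hom n k x := by
  classical
  rw [eq_sum_mo x]
  have key : ∀ s : Finset (Fin n →₀ ℕ), s ⊆ supp x → Hom n k (∑ e ∈ s, mo e) := by
    intro s
    induction s using Finset.induction_on with
    | empty => intro _; rw [Finset.sum_empty]; exact Hom.zero n k
    | insert a t ha ih =>
      intro hs
      rw [Finset.sum_insert ha]
      refine Hom.add ?_ (ih (fun x hx => hs (Finset.mem_insert_of_mem hx)))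
      have := hom_mo a
      rwa [h a (hs (Finset.mem_insert_self _ _))] at this
  exact key _ (Finset.Subset.refl _)

lemma eq_zero_of_supp {n : ℕ} {x : D n} (h : ∀ e, e ∉ supp x) : x = 0 := by
  rw [eq_sum_mo x]
  exact Finset.sum_eq_zero (fun e he => absurd he (h e))

/-- The coefficients are homogeneous: `2 |G_a| + a = |G|`. -/
lemma hom_zc {n : ℕ} {k : ℤ} {G : D (n + 1)} (hG : Hom (n + 1) k G) {j : ℤ} {a : ℕ}
    (h : 2 * j + a = k) : Hom n j (zc n a G) :=
  hom_of_supp (fun e he => by have := WH_zX hG a e he; linarith)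

/-- The coefficient of `X^a` vanishes if `|G| - a` is odd. -/
lemma zc_odd {n : ℕ} {k : ℤ} {G : D (n + 1)} (hG : Hom (n + 1) k G) {a : ℕ}
    (h : ∀ j : ℤ, 2 * j + a ≠ k) : zc n a G = 0 :=
  eq_zero_of_supp (fun e he => h _ (WH_zX hG a e he))

/-- The coefficient of `X^a` vanishes for `a > |G|`. -/
lemma zc_gt {n : ℕ} {k : ℤ} {G : D (n + 1)} (hG : Hom (n + 1) k G) {a : ℕ} (h : k < a) :
    zc n a G = 0 :=
  eq_zero_of_supp (fun e he => by have := WH_zX hG a e he; have := wtm_nonneg e; linarith)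

lemma coeff_zX_of_gt {n K : ℕ} {G : D (n + 1)} (hG : Hom (n + 1) K G) :
    (zX n G).natDegree < K + 1 := by
  rw [Nat.lt_succ_iff, natDegree_le_iff_coeff_eq_zero]
  intro a ha
  exact zc_gt hG (by exact_mod_cast ha)

/-- `z G = Σ_a G_a` -/
lemma z_eq_sum {n K : ℕ} {G : D (n + 1)} (hG : Hom (n + 1) K G) :
    z n G = ∑ a ∈ Finset.range (K + 1), zc n a G := by
  rw [← eval_zX, eval_eq_sum_range' (coeff_zX_of_gt hG)]
  exact Finset.sum_congr rfl (fun a _ => by rw [one_pow, mul_one, zc_apply])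

/-- `z G = Σ_j G_{K-2j}`, where `G_{K-2j}` is homogeneous of degree `j`. -/
lemma z_eq_sum_half {n K : ℕ} {G : D (n + 1)} (hG : Hom (n + 1) K G) :
    z n G = ∑ j ∈ Finset.range (K / 2 + 1), zc n (K - 2 * j) G := by
  rw [z_eq_sum hG]
  symm
  refine Finset.sum_bij_ne_zero (fun j _ _ => K - 2 * j) ?_ ?_ ?_ ?_
  · intro j hj _
    rw [Finset.mem_range]; omega
  · intro j hj _ j' hj' _ h
    rw [Finset.mem_range] at hj hj'
    omega
  · intro a ha hne
    rw [Finset.mem_range] at ha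
    by_cases hpar : (K - a) % 2 = 0
    · refine ⟨(K - a) / 2, Finset.mem_range.mpr (by omega), ?_, by omega⟩
      rwa [show K - 2 * ((K - a) / 2) = a by omega]
    · refine absurd (zc_odd hG (a := a) (fun j hj => hpar ?_)) hne
      omega
  · intro j _ _; rfl

section Coc

variable {n m N : ℕ}

/-- `b_a = a + m + |G_a|_m + 1`, where `|G_a|_m = (K - a) / 2 + m (2^n - 1)`, `K = |G|` -/
def bb (n m K a : ℕ) : ℕ := a + m + ((K - a) / 2 + m * (2 ^ n - 1)) + 1

lemma bb_spec {n m N K a j : ℕ} (hN : N = 1 + K + m * (2 ^ (n + 1) - 1)) (ha : 2 * j + a = K) :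
    j + m * (2 ^ n - 1) + bb n m K a = N := by
  have h1 : (K - a) / 2 = j := by omega
  have h2 : 2 ^ (n + 1) - 1 = 2 * (2 ^ n - 1) + 1 := by
    have := Nat.one_le_two_pow (n := n)
    rw [pow_succ]; omega
  rw [bb, h1, hN, h2, ← ha]; ring

/-- **The value of a cocycle on `z G`.** -/
theorem TH_z (c : Coc n m N) {K : ℕ} {G : D (n + 1)} (hG : Hom (n + 1) K G)
    (hN : N = 1 + K + m * (2 ^ (n + 1) - 1)) :
    c.TH (z n G) = ∑ a ∈ Finset.range (K + 1), c.th (bb n m K a) (zc n a G) := by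
  rw [z_eq_sum hG]
  refine c.TH_sum _ _ (fun a => ((K - a) / 2 : ℕ)) _ (fun a ha => ?_) (fun a ha h0 => ?_)
  · rw [Finset.mem_range] at ha
    by_cases hpar : (K - a) % 2 = 0
    · refine hom_zc hG ?_
      have : 2 * ((K - a) / 2) + a = K := by omega
      exact_mod_cast this
    · rw [zc_odd hG (a := a) (fun j hj => hpar (by omega))]
      exact Hom.zero n _
  · rw [Finset.mem_range] at ha
    by_cases hpar : (K - a) % 2 = 0
    · have h2 : 2 * ((K - a) / 2) + a = K := by omega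
      have h3 := bb_spec (n := n) (m := m) hN h2
      have h4 := Nat.one_le_two_pow (n := n)
      have h5 : (((K - a) / 2 + m * (2 ^ n - 1) + bb n m K a : ℕ) : ℤ) = (N : ℤ) := by
        exact_mod_cast h3
      rw [← h5]
      push_cast [Nat.cast_sub h4]
      ring
    · exact absurd (zc_odd hG (a := a) (fun j hj => hpar (by omega))) h0

/-- **The value of a cocycle on `z G`**, sum over the degrees `j` of the components. -/
theorem TH_z_half (c : Coc n m N) {K : ℕ} {G : D (n + 1)} (hG : Hom (n + 1) K G)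
    (hN : N = 1 + K + m * (2 ^ (n + 1) - 1)) :
    c.TH (z n G) =
      ∑ j ∈ Finset.range (K / 2 + 1), c.th (K - j + m * 2 ^ n + 1) (zc n (K - 2 * j) G) := by
  rw [z_eq_sum_half hG]
  refine c.TH_sum (ι := ℕ) _ _ (fun j => (j : ℤ)) (fun j => K - j + m * 2 ^ n + 1) (fun j hj => ?_)
    (fun j hj h0 => ?_)
  · rw [Finset.mem_range] at hj
    refine hom_zc hG ?_
    have : 2 * j + (K - 2 * j) = K := by omega
    exact_mod_cast this
  · rw [Finset.mem_range] at hj
    have h1 : j ≤ K := by omega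
    have h4 := Nat.one_le_two_pow (n := n + 1)
    rw [hN]
    push_cast [Nat.cast_sub h1, Nat.cast_sub h4]
    ring

/-- **T1, sum form** (all ranks `n ≥ 1`, all levels `m ≥ 1`). -/
theorem T1_sum (hn : 1 ≤ n) (hm : 1 ≤ m) (c : Coc n m N) {K : ℕ} {G : D (n + 1)}
    (hG : Hom (n + 1) K G) (hN : N = 1 + K + m * (2 ^ (n + 1) - 1)) :
    ∑ a ∈ Finset.range (K + 1), c.th (bb n m K a) (zc n a G) = 0 := by
  rw [← TH_z c hG hN]
  refine T1_final hn c hm K G hG ?_
  rw [hN]
  push_cast [Nat.cast_sub (Nat.one_le_two_pow (n := n + 1))]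
  ring

/-- **T1, sum form over the degrees.** -/
theorem T1_sum_half (hn : 1 ≤ n) (hm : 1 ≤ m) (c : Coc n m N) {K : ℕ} {G : D (n + 1)}
    (hG : Hom (n + 1) K G) (hN : N = 1 + K + m * (2 ^ (n + 1) - 1)) :
    ∑ j ∈ Finset.range (K / 2 + 1), c.th (K - j + m * 2 ^ n + 1) (zc n (K - 2 * j) G) = 0 := by
  rw [← TH_z_half c hG hN, TH_z c hG hN]
  exact T1_sum hn hm c hG hN

end Coc

section Ext

variable {n m N : ℕ} {E : Type*} [AddCommGroup E] [Module (ZMod 2) E]

/-- `Sq^b (L x) = th_b (x) ι` if `b > |x|_m`; here for the components of `z G`. -/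
lemma sq_L_zc (e : ExtData n m N E) {K : ℕ} {G : D (n + 1)} (hG : Hom (n + 1) K G) {a : ℕ}
    (ha : a ∈ Finset.range (K + 1)) :
    e.Sq (bb n m K a) (e.L (zc n a G)) = e.coc.th (bb n m K a) (zc n a G) • e.io := by
  rw [Finset.mem_range] at ha
  by_cases hpar : (K - a) % 2 = 0
  · have h2 : 2 * ((K - a) / 2) + a = K := by omega
    refine e.sq_of_gt (k := ((K - a) / 2 : ℕ)) (hom_zc hG (by exact_mod_cast h2)) ?_
    have h4 := Nat.one_le_two_pow (n := n)
    rw [bb]
    push_cast [Nat.cast_sub h4]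
    have : (0 : ℤ) ≤ a := by positivity
    have : (0 : ℤ) ≤ m := by positivity
    linarith
  · rw [zc_odd hG (a := a) (fun j hj => hpar (by omega)), map_zero, map_zero, map_zero, zero_smul]

/-- **The value of the extension on `z G`**: `Σ_a Sq^{b_a} (L G_a) = TH (z G) ι`. -/
theorem sum_sq_L (e : ExtData n m N E) {K : ℕ} {G : D (n + 1)} (hG : Hom (n + 1) K G)
    (hN : N = 1 + K + m * (2 ^ (n + 1) - 1)) :
    ∑ a ∈ Finset.range (K + 1), e.Sq (bb n m K a) (e.L (zc n a G)) = e.coc.TH (z n G) • e.io := by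
  rw [TH_z e.coc hG hN, Finset.sum_smul]
  exact Finset.sum_congr rfl (fun a ha => sq_L_zc e hG ha)

/-- **T1 for honest extensions, sum form**: `Σ_a Sq^{b_a} (L G_a) = 0`. -/
theorem T1_ext (e : ExtData n m N E) (hn : 1 ≤ n) (hm : 1 ≤ m) {K : ℕ} {G : D (n + 1)}
    (hG : Hom (n + 1) K G) (hN : N = 1 + K + m * (2 ^ (n + 1) - 1)) :
    ∑ a ∈ Finset.range (K + 1), e.Sq (bb n m K a) (e.L (zc n a G)) = 0 := by
  rw [sum_sq_L e hG hN, TH_z e.coc hG hN, T1_sum hn hm e.coc hG hN, zero_smul]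

end Ext

end Vale.Agent.P263.TI
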