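import Vale.Agent.P263.TI.TopDef
import Vale.Agent.P263.TI.Comp

/-!
P263, section I (helper387), Case 0: the functional `xi` vanishes on the multiples of `q_0` (T1).
Abstract form; the lifts `L` and the cocycle are variables.
-/

namespace Vale.Agent.P263.TI

open Polynomial Vale.Agent.P263.LZ Vale.Agent.P263.EX Vale.Agent.P263.EX.GE

lemma xi_q0_hom {T : Tower} {n d : ℕ} (hn : 1 ≤ n) (P : Psi T n (d + 1)) (F : Phi T n d P)
    (t : Top T n d F.phi)
    (L : ∀ q, D n →ₗ[ZMod 2] T.H n q) (L' : D (n + 1) →ₗ[ZMod 2] T.H (n + 1) d)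
    (c : Coc n 1 (d + 1))
    (hc : ∀ (a q : ℕ) (h : q + a = d + 1) (x : D n), c.th a x = P.psi a q h (L q x))
    (hL' : ∀ G : D (n + 1), L' G = ∑ q : Fin ((d + 1) / 2), T.up n (d - 2 * q) q d
      (by have := q.2; omega) (L q (zc n (d - 2 * q - 1) G)))
    (hr : ∀ (k : ℤ) (G : D (n + 1)), Hom (n + 1) k G → k + (2 ^ (n + 1) - 1) = d →
      T.r (n + 1) d (L' G) = io (n + 1) (q (n + 1) 0 * G))
    {K : ℕ} {G : D (n + 1)} (hG : Hom (n + 1) K G) (hd : K + (2 ^ (n + 1) - 1) = d) :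
    t.xi (q (n + 1) 0 * G) = 0 := by
  have h2n : (1 : ℕ) ≤ 2 ^ (n + 1) := Nat.one_le_two_pow
  have h2n' : (1 : ℕ) ≤ 2 ^ n := Nat.one_le_two_pow
  have hpow : (2 : ℕ) ^ (n + 1) = 2 ^ n + 2 ^ n := by rw [pow_succ]; ring
  rw [← t.phi_io (L' G) _ (hr K G hG (by rw [← hd]; push_cast [h2n]; ring)), hL' G, map_sum]
  have h1 : ∀ q : Fin ((d + 1) / 2), F.phi (T.up n (d - 2 * q) q d
      (by have := q.2; omega) (L q (zc n (d - 2 * q - 1) G))) =
      c.th (d + 1 - q) (zc n (d - 2 * q - 1) G) := by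
    intro q
    have hq := q.2
    rw [← F.lz (d - 2 * q) q (by omega) _, hc (d + 1 - q) q (by omega)]
    have e : (q : ℕ) + 1 + (d - 2 * q) = d + 1 - q := by omega
    congr 1
    congr 1
  rw [Finset.sum_congr rfl fun q _ => h1 q,
    Fin.sum_univ_eq_sum_range (fun q => c.th (d + 1 - q) (zc n (d - 2 * q - 1) G)) ((d + 1) / 2)]
  have hN : d + 1 = 1 + K + 1 * (2 ^ (n + 1) - 1) := by omega
  have hT := T1_sum_half hn le_rfl c hG hN
  have hM : (d + 1) / 2 = (2 ^ n - 1) + (K / 2 + 1) := by omega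
  rw [hM, Finset.sum_range_add]
  have hz : ∑ q ∈ Finset.range (2 ^ n - 1), c.th (d + 1 - q) (zc n (d - 2 * q - 1) G) = 0 := by
    refine Finset.sum_eq_zero fun q hq => ?_
    have hq' := Finset.mem_range.mp hq
    rw [zc_gt hG (a := d - 2 * q - 1) (by
      have : K < d - 2 * q - 1 := by omega
      exact_mod_cast this), map_zero]
  rw [hz, zero_add, ← hT]
  refine Finset.sum_congr rfl fun j hj => ?_
  have hj' := Finset.mem_range.mp hj
  have e1 : d + 1 - (2 ^ n - 1 + j) = K - j + 1 * 2 ^ n + 1 := by omega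
  have e2 : d - 2 * (2 ^ n - 1 + j) - 1 = K - 2 * j := by omega
  rw [e1, e2]

/-- **Case 0**, abstract form. -/
theorem xi_q0_of {T : Tower} {n d : ℕ} (hn : 1 ≤ n) (P : Psi T n (d + 1)) (F : Phi T n d P)
    (t : Top T n d F.phi)
    (L : ∀ q, D n →ₗ[ZMod 2] T.H n q) (L' : D (n + 1) →ₗ[ZMod 2] T.H (n + 1) d)
    (c : Coc n 1 (d + 1))
    (hc : ∀ (a q : ℕ) (h : q + a = d + 1) (x : D n), c.th a x = P.psi a q h (L q x))
    (hL' : ∀ G : D (n + 1), L' G = ∑ q : Fin ((d + 1) / 2), T.up n (d - 2 * q) q d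
      (by have := q.2; omega) (L q (zc n (d - 2 * q - 1) G)))
    (hr : ∀ (k : ℤ) (G : D (n + 1)), Hom (n + 1) k G → k + (2 ^ (n + 1) - 1) = d →
      T.r (n + 1) d (L' G) = io (n + 1) (q (n + 1) 0 * G)) (G : D (n + 1)) :
    t.xi (q (n + 1) 0 * G) = 0 := by
  rw [eq_sum_mo G, Finset.mul_sum, map_sum]
  refine Finset.sum_eq_zero fun e _ => ?_
  have he : Hom (n + 1) (wtm e) (mo e) := hom_mo e
  have hw : 0 ≤ wtm e := wtm_nonneg e
  by_cases hd : wtm e + (2 ^ (n + 1) - 1) = d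
  · obtain ⟨K, hK⟩ := Int.eq_ofNat_of_zero_le hw
    rw [hK] at he hd
    refine xi_q0_hom hn P F t L L' c hc hL' hr he ?_
    have h2n : (1 : ℕ) ≤ 2 ^ (n + 1) := Nat.one_le_two_pow
    zify [h2n]
    exact hd
  · refine t.xi_supp (2 ^ (n + 1) - 2 ^ 0 + wtm e) _ ((Hom.q (n + 1) 0).mul he) ?_
    intro h
    apply hd
    rw [← h]; ring

end Vale.Agent.P263.TI
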