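import Vale.Agent.P263.TI.Alg
import Vale.Agent.P263.TI.Comp
import Vale.Agent.P263.EX.GE4

/-!
P263, section I (helper387), part I6: every homogeneous element of the Dickson algebra is the
restriction of a class of the tower (built from the classes `u^j P(y)` only).
-/

namespace Vale.Agent.P263.TI

open Polynomial Vale.Agent.P263.LZ Vale.Agent.P263.EX Vale.Agent.P263.EX.GE

lemma zX_eq_zx (n : ℕ) : zX n = zx n := rfl

/-- `io G = Σ_a x_0^a St (io G_a)` -/
lemma io_sum {n K : ℕ} {G : D (n + 1)} (hG : Hom (n + 1) K G) :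
    io (n + 1) G = ∑ a ∈ Finset.range (K + 1),
      MvPolynomial.X 0 ^ a * St n (io n (zc n a G)) := by
  rw [io_succ_sum G (N := K + 1) (by rw [← zX_eq_zx]; exact coeff_zX_of_gt hG)]
  rfl

lemma hom_zero_pos {q : ℕ} (hq : q ≠ 0) {G : D 0} (hG : Hom 0 q G) : G = 0 := by
  rw [D_as_sum G]
  refine Finset.sum_eq_zero fun e he => ?_
  have h := hG.weight he
  simp only [Finset.univ_eq_empty, Finset.sum_empty] at h
  omega

/-- Every homogeneous element of `D n` is the restriction of a class. -/
theorem exists_lift (T : Tower) : ∀ (n q : ℕ) (G : D n), Hom n q G → ∃ U : T.H n q, T.r n q U = io n G := by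
  intro n
  induction n with
  | zero =>
    intro q G hG
    rcases Nat.eq_zero_or_pos q with h | h
    · subst h
      rcases Hom.const (by simpa using hG) with h0 | h1
      · exact ⟨0, by rw [h0, map_zero, map_zero]⟩
      · exact ⟨T.one, by rw [h1, map_one, T.r_one]⟩
    · exact ⟨0, by rw [hom_zero_pos (by omega) hG, map_zero, map_zero]⟩
  | succ n ih =>
    intro K G hG
    have hex : ∀ a ∈ Finset.range (K + 1), ∃ W : T.H (n + 1) K,
        T.r (n + 1) K W = MvPolynomial.X 0 ^ a * St n (io n (zc n a G)) := by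
      intro a ha
      have ha' : a ≤ K := by have := Finset.mem_range.mp ha; omega
      by_cases hpar : (K - a) % 2 = 0
      · obtain ⟨j, hj⟩ : ∃ j, a + 2 * j = K := ⟨(K - a) / 2, by omega⟩
        have hz : Hom n (j : ℤ) (zc n a G) := hom_zc hG (by rw [← hj]; push_cast; ring)
        obtain ⟨U, hU⟩ := ih j _ hz
        exact ⟨T.up n a j K hj U, by rw [T.r_up, hU]⟩
      · refine ⟨0, ?_⟩
        have hz : zc n a G = 0 := zc_odd hG (fun j hj => by omega)
        rw [hz, map_zero, map_zero, map_zero, mul_zero]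
    choose! W hW using hex
    refine ⟨∑ a ∈ Finset.range (K + 1), W a, ?_⟩
    rw [map_sum, io_sum hG]
    exact Finset.sum_congr rfl hW

end Vale.Agent.P263.TI
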