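import Vale.Agent.P263.TI.Bin
import Vale.Agent.P263.TI.Case0
import Vale.Agent.P263.TI.Lift0
import Vale.Agent.P263.EX.T3Inst
import Vale.Agent.P263.EX.T2a
import Vale.Agent.P263.EX.GE5

/-!
P263, section [I] (helper51): the three theorems on the top functional `xi`, abstract forms
(`L` and the cocycle are variables).

* `I_one` (`n = 0`): `xi ≠ 0` only if `d + 1` is a power of two.
* `I_two_of` (`n = 1`): `xi ≠ 0` only if `d + 2` is a power of two.
* `I_big_of` (`n ≥ 2`): `xi ≠ 0` only if `d = 2 c` with `c` even and `phi (P(y)) ≠ 0` for some `y`.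
-/

namespace Vale.Agent.P263.TI

open Polynomial Vale.Agent.P263.LZ Vale.Agent.P263.EX Vale.Agent.P263.EX.GE
open Vale.Agent.P263.EX.DS (s)

/-! ### `n = 0` -/

lemma Tower.ext0 (T : Tower) {q q' : ℕ} (e : q = q') {y : T.H 0 q} {y' : T.H 0 q'}
    (h : T.r 0 q y = T.r 0 q' y') : HEq y y' := by
  subst e
  exact heq_of_eq (T.r_inj q h)

lemma Psi.congr0 {T : Tower} {N : ℕ} (P : Psi T 0 N) {a q q' : ℕ} (e : q = q')
    (h : q + a = N) (h' : q' + a = N) {y : T.H 0 q} {y' : T.H 0 q'}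
    (hr : T.r 0 q y = T.r 0 q' y') : P.psi a q h y = P.psi a q' h' y' := by
  subst e
  rw [T.r_inj q hr]

lemma Tower.zero0 (T : Tower) {q : ℕ} (hq : q ≠ 0) (y : T.H 0 q) : y = 0 := by
  refine T.r_inj q ?_
  rw [map_zero]
  have h := T.r_hom 0 q y
  have h1 : T.r 0 q y = MvPolynomial.C (MvPolynomial.coeff 0 (T.r 0 q y)) :=
    MvPolynomial.eq_C_of_isEmpty _
  have h2 : MvPolynomial.coeff 0 (T.r 0 q y) = 0 := by
    by_contra hne
    have := h hne
    rw [map_zero] at this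
    exact hq this.symm
  rw [h1, h2, map_zero]

/-- a functional on `D 1` supported in degree `d` is determined by its value at `q_0^d` -/
lemma D1_mo (e : Fin 1 →₀ ℕ) : mo e = q 1 0 ^ e 0 := by
  rw [mo_eq_prod, Fin.prod_univ_one, q_lt Nat.one_pos]
  rfl

lemma wtm_one (e : Fin 1 →₀ ℕ) : wtm e = e 0 := by
  unfold wtm
  rw [Fin.sum_univ_one]
  simp [w]

lemma exists_mo_ne {n : ℕ} {f : D n →ₗ[ZMod 2] ZMod 2} (hf : f ≠ 0) : ∃ e, f (mo e) ≠ 0 := by
  by_contra hcon
  push Not at hcon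
  apply hf
  refine LinearMap.toAddMonoidHom_injective ?_
  refine addHom_ext (fun e => ?_)
  exact hcon e

lemma io_one_q : io 1 (q 1 0) = MvPolynomial.X 0 := by
  rw [io_q, dc_succ_zero]
  simp [dv, dc_zero]

/-- **The case `n = 0`.** -/
theorem I_one {T : Tower} {d : ℕ} (P : Psi T 0 (d + 1)) (F : Phi T 0 d P) (t : Top T 0 d F.phi)
    (hxi : t.xi ≠ 0) : ∃ s, d + 1 = 2 ^ s := by
  -- the value at `q_0^d`
  obtain ⟨e, he⟩ := exists_mo_ne hxi
  have hd : e 0 = d := by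
    by_contra hne
    apply he
    refine t.xi_supp (wtm e) _ (hom_mo e) ?_
    rw [wtm_one]
    exact_mod_cast hne
  rw [D1_mo, hd] at he
  have h1 : F.phi (T.up 0 d 0 d rfl T.one) = t.xi (q 1 0 ^ d) := by
    refine t.phi_io _ _ ?_
    rw [T.r_up, T.r_one, map_one, mul_one, map_pow, io_one_q]
  have h2 : P.psi (d + 1) 0 (by omega) T.one ≠ 0 := by
    have h3 := F.lz d 0 rfl T.one
    rw [h1] at h3
    rw [← h3] at he
    intro h4
    apply he
    rw [← h4]
    congr 1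
    congr 1
    omega
  have h5 := P.bm (d + 1) 0 (by omega) T.one
  have h6 : ∀ a : Fin (d + 1 + 1), (a : ℕ) ≠ d + 1 →
      C (P.psi a (0 + (d + 1 - a)) (by have := a.2; omega)
        (T.sq 0 (d + 1 - a) 0 (0 + (d + 1 - a)) rfl T.one)) *
        BM.wt (ZMod 2) a (d + 1 - a) = 0 := by
    intro a ha
    rw [T.zero0 (q := 0 + (d + 1 - a)) (by have := a.2; omega) (T.sq 0 (d + 1 - a) 0
      (0 + (d + 1 - a)) rfl T.one), map_zero, map_zero, zero_mul]
  rw [Finset.sum_eq_single (Fin.last (d + 1))] at h5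
  rotate_left
  · intro a _ ha
    refine h6 a (fun h => ha (Fin.ext ?_))
    rw [h, Fin.val_last]
  · intro h; exact absurd (Finset.mem_univ _) h
  have h7 : P.psi (Fin.last (d + 1)) (0 + (d + 1 - (Fin.last (d + 1) : ℕ)))
      (by rw [Fin.val_last]; omega)
      (T.sq 0 (d + 1 - (Fin.last (d + 1) : ℕ)) 0 (0 + (d + 1 - (Fin.last (d + 1) : ℕ))) rfl T.one) =
      P.psi (d + 1) 0 (by omega) T.one := by
    refine P.congr0 (a := d + 1) (by rw [Fin.val_last]; omega) _ _ ?_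
    rw [T.r_sq, T.r_one]
    rw [Fin.val_last, Nat.sub_self, Sq_apply, map_one]
    simp
  rw [h7] at h5
  rw [Fin.val_last, Nat.sub_self] at h5
  rcases zmod2 (P.psi (d + 1) 0 (by omega) T.one) with h8 | h8
  · exact absurd h8 h2
  · rw [h8, map_one, one_mul, one_mul] at h5
    exact pow_two_of_wt (by omega) h5

/-! ### reduction modulo `q_0` -/

section red

variable {T : Tower} {n d : ℕ} {phi : T.H (n + 1) d →ₗ[ZMod 2] ZMod 2}

/-- the functional `xi ∘ sh` on `D n` -/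
noncomputable def Top.y0 (t : Top T n d phi) : D n →ₗ[ZMod 2] ZMod 2 :=
  t.xi.comp (sh n).toLinearMap

lemma Top.y0_apply (t : Top T n d phi) (x : D n) : t.y0 x = t.xi (sh n x) := rfl

lemma Top.xi_eq (t : Top T n d phi) (h0 : ∀ G : D (n + 1), t.xi (q (n + 1) 0 * G) = 0)
    (x : D (n + 1)) : t.xi x = t.y0 (rs n x) := by
  obtain ⟨g, hg⟩ := q_zero_dvd x
  nth_rewrite 1 [hg]
  rw [map_add, h0, add_zero, Top.y0_apply]

lemma Top.y0_ne (t : Top T n d phi) (h0 : ∀ G : D (n + 1), t.xi (q (n + 1) 0 * G) = 0)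
    (hxi : t.xi ≠ 0) : t.y0 ≠ 0 := by
  intro h
  apply hxi
  refine LinearMap.ext fun x => ?_
  rw [t.xi_eq h0, h]; rfl

lemma Top.y0_supp (t : Top T n d phi) {k : ℤ} {x : D n} (hx : Hom n k x) (hk : 2 * k ≠ d) :
    t.y0 x = 0 :=
  t.xi_supp (2 * k) _ (hom_sh hx) hk

lemma rs_eq_r (n : ℕ) : rs n = T2.r n := rfl

lemma sh_eq_j (n : ℕ) : sh n = T2.j n := rfl

lemma Top.y0_sq (t : Top T n d phi) (h0 : ∀ G : D (n + 1), t.xi (q (n + 1) 0 * G) = 0)
    {b : ℕ} (hb : 1 ≤ b) (x : D n) : t.y0 (s n 0 b x) = 0 := by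
  have h1 : rs n (s (n + 1) 0 (2 * b) (sh n x)) = s n 0 b x := by
    rw [rs_eq_r, T2.r_s_even, ← rs_eq_r, rs_sh]
  rw [← h1, ← t.xi_eq h0]
  exact t.xi_sq (2 * b) _ (by omega)

/-- `d = 2 c` -/
lemma Top.even (t : Top T n d phi) (h0 : ∀ G : D (n + 1), t.xi (q (n + 1) 0 * G) = 0)
    (hxi : t.xi ≠ 0) : ∃ c : ℕ, 2 * c = d := by
  obtain ⟨e, he⟩ := exists_mo_ne (t.y0_ne h0 hxi)
  have h1 : 2 * wtm e = d := by
    by_contra hne
    exact he (t.y0_supp (hom_mo e) hne)
  have h2 := wtm_nonneg e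
  exact ⟨(wtm e).toNat, by omega⟩

lemma Top.ann (t : Top T n d phi) (h0 : ∀ G : D (n + 1), t.xi (q (n + 1) 0 * G) = 0) {c : ℕ}
    (hc : 2 * c = d) : Ann n 0 c t.y0 where
  supp k x hx hk := by
    refine t.y0_supp hx (fun h => hk ?_)
    rw [Nat.cast_zero, zero_mul, add_zero]
    omega
  ann b x hb := t.y0_sq h0 hb x

end red

/-! ### `n = 1` -/

lemma coeff_one_add_pow {R : Type*} [CommRing R] (x : R) (k b : ℕ) :
    (((1 : R[X]) + C x * X) ^ k).coeff b = (k.choose b : R) * x ^ b := by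
  rw [add_comm, add_pow, finsetSum_coeff]
  have h1 : ∀ m ∈ Finset.range (k + 1), ((C x * X) ^ m * 1 ^ (k - m) * ((k.choose m : ℕ) : R[X])).coeff b
      = if b = m then (k.choose m : R) * x ^ m else 0 := by
    intro m _
    have : (C x * X) ^ m * 1 ^ (k - m) * ((k.choose m : ℕ) : R[X]) =
        C ((k.choose m : R) * x ^ m) * X ^ m := by
      rw [one_pow, mul_one, mul_pow, ← C_pow, C_mul]
      have : ((k.choose m : ℕ) : R[X]) = C (k.choose m : R) := by simp
      rw [this]; ring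
    rw [this, coeff_C_mul, coeff_X_pow]
    split_ifs <;> simp
  rw [Finset.sum_congr rfl h1]
  by_cases hb : b ≤ k
  · rw [Finset.sum_ite_eq, if_pos (Finset.mem_range.mpr (by omega))]
  · rw [Finset.sum_eq_zero, Nat.choose_eq_zero_of_lt (by omega), Nat.cast_zero, zero_mul]
    intro m hm
    rw [if_neg]
    have := Finset.mem_range.mp hm
    omega

lemma s_one_pow (k b : ℕ) : s 1 0 b (q 1 0 ^ k) = (k.choose b : D 1) * q 1 0 ^ (k + b) := by
  rw [DS.s_apply, pow_zero, one_mul, map_pow, P_q_zero]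
  have hF : DS.F 1 = 1 + C (q 1 0) * X := by
    unfold DS.F
    rw [Finset.sum_range_succ, Finset.sum_range_one, q_self]
    simp [add_comm]
  rw [hF, mul_pow, ← C_pow, coeff_C_mul, coeff_one_add_pow, pow_add]
  ring

/-- **The case `n = 1`** (the hypothesis `h0` is Case 0). -/
theorem I_two_of {T : Tower} {d : ℕ} {phi : T.H 2 d →ₗ[ZMod 2] ZMod 2} (t : Top T 1 d phi)
    (h0 : ∀ G : D 2, t.xi (q 2 0 * G) = 0) (hxi : t.xi ≠ 0) : ∃ s, d + 2 = 2 ^ (s + 1) := by
  obtain ⟨c, hc⟩ := t.even h0 hxi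
  have hA := t.ann h0 hc
  obtain ⟨e, he⟩ := exists_mo_ne (t.y0_ne h0 hxi)
  have hd : e 0 = c := by
    by_contra hne
    apply he
    refine hA.supp (wtm e) _ (hom_mo e) ?_
    rw [wtm_one, Nat.cast_zero, zero_mul, add_zero]
    exact_mod_cast hne
  rw [D1_mo, hd] at he
  obtain ⟨s, hs⟩ := pow_two_of_choose_sub c (fun b hb hbc => by
    by_contra hodd
    apply he
    have h1 := hA.ann b (q 1 0 ^ (c - b)) hb
    rw [s_one_pow, show c - b + b = c by omega] at h1
    have h2 : (((c - b).choose b : ℕ) : D 1) = 1 := by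
      have h3 : (c - b).choose b % 2 = 1 := by omega
      have h4 : (((c - b).choose b : ℕ) : ZMod 2) = 1 := by
        rw [← Nat.cast_one, ZMod.natCast_eq_natCast_iff']
        exact h3
      have h5 := congrArg (algebraMap (ZMod 2) (D 1)) h4
      rwa [map_natCast, map_one] at h5
    rw [h2, one_mul] at h1
    exact h1)
  exact ⟨s, by rw [pow_succ, ← hs]; omega⟩

/-! ### `n ≥ 2` -/

section big

variable {T : Tower} {n d : ℕ}

/-- `phi (P(U)) = y0 (Y)` if `U` restricts to `Y`. -/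
lemma Top.phi_up0 {phi : T.H (n + 1) d →ₗ[ZMod 2] ZMod 2} (t : Top T n d phi)
    (h0 : ∀ G : D (n + 1), t.xi (q (n + 1) 0 * G) = 0) {c : ℕ} (h : 0 + 2 * c = d)
    (U : T.H n c) (Y : D n) (hY : Hom n c Y) (hU : T.r n c U = io n Y) :
    phi (T.up n 0 c d h U) = t.y0 Y := by
  obtain ⟨Z, _, hZ⟩ := sum_Stv Y hY
  rw [t.phi_up c h U Y _ hU hZ, map_add, h0, add_zero, Top.y0_apply]

/-- A functional of degree `c` which kills the multiples of `q_0` lives in even degree. -/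
lemma even_of_kills {y : D n → ZMod 2} (hn : 1 ≤ n) {e : Fin n →₀ ℕ} (he : y (mo e) ≠ 0)
    (hy : ∀ x, y (q n 0 * x) = 0) : Even (wtm e) := by
  have he0 : e ⟨0, hn⟩ = 0 := by
    by_contra hne
    apply he
    have h1 : e = Finsupp.single ⟨0, hn⟩ 1 + (e - Finsupp.single ⟨0, hn⟩ 1) := by
      refine Finsupp.ext fun j => ?_
      rw [Finsupp.add_apply, Finsupp.tsub_apply, Finsupp.single_apply]
      split_ifs with h
      · subst h; omega
      · omega
    rw [h1, ← mo_mul, ← gen_eq_mo, ← q_lt hn]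
    exact hy _
  unfold wtm
  rw [even_iff_two_dvd]
  refine Finset.dvd_sum fun i _ => ?_
  rcases Nat.eq_zero_or_pos (i : ℕ) with h | h
  · have : i = ⟨0, hn⟩ := Fin.ext h
    rw [this, he0]; simp
  · refine Dvd.dvd.mul_left ?_ _
    unfold w
    obtain ⟨n', rfl⟩ : ∃ n', n = n' + 1 := ⟨n - 1, by omega⟩
    obtain ⟨i', hi'⟩ : ∃ i', (i : ℕ) = i' + 1 := ⟨i - 1, by omega⟩
    rw [hi']
    exact ⟨2 ^ n' - 2 ^ i', by ring⟩

/-- **The case `n ≥ 2`** (the hypothesis `h0` is Case 0, `L` are the lifts, `cc` the cocycle). -/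
theorem I_big_of (hn : 2 ≤ n) (P : Psi T n (d + 1)) (F : Phi T n d P) (t : Top T n d F.phi)
    (h0 : ∀ G : D (n + 1), t.xi (q (n + 1) 0 * G) = 0)
    (L : ∀ q, D n →ₗ[ZMod 2] T.H n q)
    (r_L : ∀ (k : ℤ) (m : ℕ) (G : D n), Hom n k G → k + (2 ^ n - 1) = m →
      T.r n m (L m G) = io n (q n 0 * G))
    (cc : Coc n 1 (d + 1))
    (hcc : ∀ (a m : ℕ) (h : m + a = d + 1) (x : D n), cc.th a x = P.psi a m h (L m x))
    (hxi : t.xi ≠ 0) :
    ∃ c, ∃ h : 0 + 2 * c = d, Even c ∧ ∃ y : T.H n c, F.phi (T.up n 0 c d h y) ≠ 0 := by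
  obtain ⟨c, hc⟩ := t.even h0 hxi
  have hA := t.ann h0 hc
  have h2n : (1 : ℕ) ≤ 2 ^ n := Nat.one_le_two_pow
  subst hc
  -- the cocycle
  have key : ∀ x, t.y0 (q n 0 * x) = cc.th (c + 0 + 1) x := by
    intro x
    refine mo_induction (P := fun x => t.y0 (q n 0 * x) = cc.th (c + 0 + 1) x) ?_ ?_ ?_ x
    · rw [mul_zero, map_zero, map_zero]
    · intro x y hx hy; rw [mul_add, map_add, map_add, hx, hy]
    · intro e
      have he : Hom n (wtm e) (mo e) := hom_mo e
      by_cases hk : wtm e + (2 ^ n - 1) = c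
      · have hq : Hom n c (q n 0 * mo e) := by
          have := (Hom.q n 0).mul he
          rw [pow_zero] at this
          refine this.congr ?_
          rw [← hk]; ring
        have h1 := t.phi_up0 h0 (Nat.zero_add _) (L c (mo e)) _ hq (r_L _ c _ he hk)
        rw [← h1, ← F.lz 0 c (Nat.zero_add _) (L c (mo e)), hcc (c + 0 + 1) c (by omega)]
      · rw [hA.supp (wtm e + (2 ^ n - 1)) _ ?_ ?_, cc.supp (c + 0 + 1) (wtm e) _ he ?_]
        · intro h
          apply hk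
          push_cast at h
          linarith
        · have := (Hom.q n 0).mul he
          rw [pow_zero] at this
          exact this.congr (by ring)
        · rw [Nat.cast_zero, zero_mul, add_zero]
          exact hk
  have hkill : ∀ x, t.y0 (q n 0 * x) = 0 := T3' hn (w := c) (j := 0) cc hA key
  obtain ⟨e, he⟩ := exists_mo_ne (t.y0_ne h0 hxi)
  have hwe : wtm e = c := by
    by_contra hne
    apply he
    refine hA.supp (wtm e) _ (hom_mo e) ?_
    rwa [Nat.cast_zero, zero_mul, add_zero]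
  have hev : Even (wtm e) := even_of_kills (y := t.y0) (by omega) he hkill
  rw [hwe] at hev
  obtain ⟨U, hU⟩ := exists_lift T n c (mo e) (by rw [← hwe]; exact hom_mo e)
  refine ⟨c, Nat.zero_add _, by exact_mod_cast hev, U, ?_⟩
  rw [t.phi_up0 h0 (Nat.zero_add _) U (mo e) (by rw [← hwe]; exact hom_mo e) hU]
  exact he

end big

end Vale.Agent.P263.TI
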