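import Vale.Agent.P263.EX.GE4
import Vale.Agent.P263.EX.T1Inst

/-!
# P263, section [I]: the interface between topology and the algebraic theorems

`Tower`: the cohomology groups `H n q = H^q(BW_n; F_2)` of the iterated wreath products, with the
restriction to the elementary abelian subgroup `V_n`, the Steenrod squares and the operations
`up j y = u^j P(y)`.
-/

namespace Vale.Agent.P263.TI

open Polynomial Vale.Agent.P263.LZ Vale.Agent.P263.EX Vale.Agent.P263.EX.GE

/-- The total power map of the polynomial ring, `x_i ↦ x_{i+1} (x_{i+1} + x_0)`. -/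
noncomputable abbrev St (n : ℕ) : S n →ₐ[ZMod 2] S (n + 1) := Sta n

/-- The cohomology of the tower of iterated wreath products. -/
structure Tower where
  /-- `H n q` is `H^q(BW_n; F_2)` -/
  H : ℕ → ℕ → Type
  [acg : ∀ n q, AddCommGroup (H n q)]
  [mod : ∀ n q, Module (ZMod 2) (H n q)]
  /-- restriction to `V_n` -/
  r : ∀ n q, H n q →ₗ[ZMod 2] S n
  r_hom : ∀ n q (y : H n q), (r n q y).IsHomogeneous q
  /-- the Steenrod square `Sq^a` -/
  sq : ∀ n a q q' : ℕ, q + a = q' → (H n q →ₗ[ZMod 2] H n q')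
  r_sq : ∀ (n a q q' : ℕ) (h : q + a = q') (y : H n q),
    r n q' (sq n a q q' h y) = Sq n a (r n q y)
  /-- `up n j q q' h y` is `u^j P(y)` -/
  up : ∀ n j q q' : ℕ, j + 2 * q = q' → H n q → H (n + 1) q'
  up_add : ∀ (n j q q' : ℕ) (h : j + 2 * q = q') (x y : H n q), 1 ≤ j →
    up n j q q' h (x + y) = up n j q q' h x + up n j q q' h y
  r_up : ∀ (n j q q' : ℕ) (h : j + 2 * q = q') (y : H n q),
    r (n + 1) q' (up n j q q' h y) = MvPolynomial.X 0 ^ j * St n (r n q y)
  /-- `Sq^a (u^j P(y)) = Σ_b c_b u^(j+a-2b) P(Sq^b y)` for `j ≥ 1` -/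
  sq_up : ∀ (n j q q' a q'' : ℕ) (h : j + 2 * q = q') (h' : q' + a = q''), 1 ≤ j →
    ∃ c : ℕ → ZMod 2, ∀ y : H n q, sq (n + 1) a q' q'' h' (up n j q q' h y) =
      ∑ b : Fin (a / 2 + 1), c b • up n (j + a - 2 * b) (q + b) q''
        (by have := b.2; omega) (sq n b q (q + b) rfl y)
  /-- the unit class of a point -/
  one : H 0 0
  r_one : r 0 0 one = 1
  r_inj : ∀ q, Function.Injective (r 0 q)

attribute [instance] Tower.acg Tower.mod

/-- The cocycle of the cofibre of `α_n`, on all of `H n *`: `psi a q y` is the component of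
`Sq^a` of a lift of `y` on the top class (of degree `N`). -/
structure Psi (T : Tower) (n N : ℕ) where
  psi : ∀ a q : ℕ, q + a = N → (T.H n q →ₗ[ZMod 2] ZMod 2)
  psi_zero : ∀ (h : N + 0 = N) (y : T.H n N), psi 0 N h y = 0
  bm : ∀ (M q : ℕ) (h : q + M = N) (y : T.H n q),
    ∑ a : Fin (M + 1), C (psi a (q + (M - a)) (by have := a.2; omega)
        (T.sq n (M - a) q (q + (M - a)) rfl y)) * BM.wt (ZMod 2) a (M - a)
      + C (psi M q h y) * BM.wt (ZMod 2) 0 M = 0

/-- The top functional `phi` on `H^d(BW_{n+1})` with the relation of Lannes-Zarati. -/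
structure Phi (T : Tower) (n d : ℕ) (P : Psi T n (d + 1)) where
  phi : T.H (n + 1) d →ₗ[ZMod 2] ZMod 2
  lz : ∀ (j q : ℕ) (h : j + 2 * q = d) (y : T.H n q),
    P.psi (q + 1 + j) q (by omega) y = phi (T.up n j q d h y)

end Vale.Agent.P263.TI
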