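import Vale.Agent.P263.TI.Alg
import Vale.Agent.P263.TI.Comp

/-!
# P263, section [I]: the lift `L` of the Dickson algebra (times `q_0`) to the tower

`L T n q : D n → H^q(BW_n)`, the component in degree `q` of the lift of `G ↦ q_0 G`: its
restriction to `V_n` is the component of degree `q` of `io (q_0 G)`, and it is compatible with the
squares (at level `1`).
-/

namespace Vale.Agent.P263.TI

open Polynomial Vale.Agent.P263.LZ Vale.Agent.P263.EX Vale.Agent.P263.EX.GE

variable (T : Tower)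

/-- `u^j P(-)` as a linear map, `j ≥ 1` -/
noncomputable def upL (n j q q' : ℕ) (h : j + 2 * q = q') (hj : 1 ≤ j) :
    T.H n q →ₗ[ZMod 2] T.H (n + 1) q' :=
  AddMonoidHom.toZModLinearMap 2
    (AddMonoidHom.mk' (T.up n j q q' h) (fun x y => T.up_add n j q q' h x y hj))

lemma upL_apply (n j q q' : ℕ) (h : j + 2 * q = q') (hj : 1 ≤ j) (y : T.H n q) :
    upL T n j q q' h hj y = T.up n j q q' h y := rfl

/-- the sum of all `u^j P(y_q)`, `j = q' - 2 q ≥ 1` -/
noncomputable def US (n q' : ℕ) :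
    (∀ q : Fin ((q' + 1) / 2), T.H n q) →ₗ[ZMod 2] T.H (n + 1) q' :=
  ∑ q : Fin ((q' + 1) / 2),
    (upL T n (q' - 2 * q) q q' (by have := q.2; omega) (by have := q.2; omega)).comp
      (LinearMap.proj q)

lemma US_apply (n q' : ℕ) (y : ∀ q : Fin ((q' + 1) / 2), T.H n q) :
    US T n q' y = ∑ q : Fin ((q' + 1) / 2),
      T.up n (q' - 2 * q) q q' (by have := q.2; omega) (y q) := by
  rw [US, LinearMap.sum_apply]
  rfl

/-- the normal forms -/
noncomputable def M : ∀ n q : ℕ, Submodule (ZMod 2) (T.H n q)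
  | 0, _ => ⊤
  | n + 1, q' => (Submodule.pi Set.univ (fun q : Fin ((q' + 1) / 2) => M n q)).map (US T n q')

/-- the sum over the powers of `x_0` of the same parity -/
lemma indep2 {n q' : ℕ} (g : ℕ → S n)
    (h : ∑ i ∈ Finset.range ((q' + 1) / 2), (MvPolynomial.X 0 : S (n + 1)) ^ (q' - 2 * i) *
      St n (g i) = 0) : ∀ i, i < (q' + 1) / 2 → g i = 0 := by
  set m := (q' + 1) / 2 with hm
  rw [← Finset.sum_range_reflect] at h
  have h2 : (MvPolynomial.X 0 : S (n + 1)) ^ (q' - 2 * (m - 1)) *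
      ∑ i ∈ Finset.range m, ((MvPolynomial.X 0 : S (n + 1)) ^ 2) ^ i * St n (g (m - 1 - i)) = 0 := by
    rw [← h, Finset.mul_sum]
    refine Finset.sum_congr rfl (fun i hi => ?_)
    have hi' := Finset.mem_range.1 hi
    rw [← pow_mul, ← mul_assoc, ← pow_add]
    congr 2
    omega
  have h3 := (mul_eq_zero.1 h2).resolve_left (pow_ne_zero _ X_ne_zero')
  have h4 := indep (n := n) (p := 2) (by norm_num) m (fun i => g (m - 1 - i)) h3
  intro i hi
  have h5 := h4 (m - 1 - i) (by omega)
  have h6 : m - 1 - (m - 1 - i) = i := by omega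
  simpa [h6] using h5

/-- restriction is injective on the normal forms -/
theorem r_inj_M : ∀ (n q : ℕ) (w : T.H n q), w ∈ M T n q → T.r n q w = 0 → w = 0 := by
  intro n
  induction n with
  | zero =>
    intro q w _ hw
    exact T.r_inj q (by rw [hw, map_zero])
  | succ n ih =>
    intro q' w hw hr
    obtain ⟨y, hy, rfl⟩ := hw
    have hy' : ∀ p : Fin ((q' + 1) / 2), y p ∈ M T n p := fun p => hy p (Set.mem_univ _)
    rw [US_apply, map_sum] at hr
    have h1 : ∀ q : Fin ((q' + 1) / 2), T.r n q (y q) = 0 := by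
      let g : ℕ → S n := fun i => if h : i < (q' + 1) / 2 then T.r n i (y ⟨i, h⟩) else 0
      have h2 : ∑ i ∈ Finset.range ((q' + 1) / 2),
          (MvPolynomial.X 0 : S (n + 1)) ^ (q' - 2 * i) * St n (g i) = 0 := by
        rw [Finset.sum_range, ← hr]
        refine Finset.sum_congr rfl (fun i _ => ?_)
        rw [T.r_up]
        simp only [g, i.2, dif_pos]
      have h3 := indep2 g h2
      intro q
      have h4 := h3 q q.2
      simpa only [g, q.2, dif_pos] using h4
    have h2 : y = 0 := by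
      funext q
      exact ih q (y q) (hy' q) (h1 q)
    rw [h2, map_zero]

theorem r_eq_M {n q : ℕ} {x y : T.H n q} (hx : x ∈ M T n q) (hy : y ∈ M T n q)
    (h : T.r n q x = T.r n q y) : x = y := by
  have := r_inj_M T n q (x - y) ((M T n q).sub_mem hx hy) (by rw [map_sub, h, sub_self])
  exact sub_eq_zero.1 this

/-- a single term is a normal form -/
lemma up_mem {n j q q' : ℕ} (h : j + 2 * q = q') (hj : 1 ≤ j) {y : T.H n q} (hy : y ∈ M T n q) :
    T.up n j q q' h y ∈ M T (n + 1) q' := by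
  have hq : q < (q' + 1) / 2 := by omega
  refine ⟨Pi.single (⟨q, hq⟩ : Fin ((q' + 1) / 2)) y, ?_, ?_⟩
  · intro i _
    by_cases hi : i = ⟨q, hq⟩
    · subst hi; rw [Pi.single_eq_same]; exact hy
    · rw [Pi.single_eq_of_ne hi]; exact Submodule.zero_mem _
  · rw [US, LinearMap.sum_apply, Finset.sum_eq_single (⟨q, hq⟩ : Fin ((q' + 1) / 2))]
    · rw [LinearMap.comp_apply, LinearMap.proj_apply, Pi.single_eq_same, upL_apply]
      have hj' : j = q' - 2 * q := by omega
      subst hj'
      rfl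
    · intro i _ hi
      rw [LinearMap.comp_apply, LinearMap.proj_apply, Pi.single_eq_of_ne hi, map_zero]
    · intro h1; exact absurd (Finset.mem_univ _) h1

/-- the normal forms are closed under the squares -/
theorem sq_mem : ∀ (n b q q' : ℕ) (h : q + b = q') (w : T.H n q), w ∈ M T n q →
    T.sq n b q q' h w ∈ M T n q' := by
  intro n
  induction n with
  | zero => intro b q q' h w _; exact Submodule.mem_top
  | succ n ih =>
    intro b q' q'' h w hw
    obtain ⟨y, hy, rfl⟩ := hw
    have hy' : ∀ p : Fin ((q' + 1) / 2), y p ∈ M T n p := fun p => hy p (Set.mem_univ _)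
    rw [US_apply, map_sum]
    refine Submodule.sum_mem _ (fun q _ => ?_)
    obtain ⟨c, hc⟩ := T.sq_up n (q' - 2 * q) q q' b q'' (by have := q.2; omega) h
      (by have := q.2; omega)
    rw [hc]
    refine Submodule.sum_mem _ (fun i _ => ?_)
    refine Submodule.smul_mem _ _ ?_
    exact up_mem T _ (by have := q.2; have := i.2; omega) (ih i q (q + i) rfl (y q) (hy' q))

/-- the constant term of an element of `D 0` -/
noncomputable def ct : D 0 →ₐ[ZMod 2] ZMod 2 := LZ.lift (fun i => i.elim0)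

lemma io_zero (G : D 0) : io 0 G = algebraMap (ZMod 2) (S 0) (ct G) := by
  have h : io 0 = (Algebra.ofId (ZMod 2) (S 0)).comp ct := algHom_ext_D (fun j hj => by omega)
  rw [h]
  rfl

/-- the lift -/
noncomputable def L : ∀ n q : ℕ, D n →ₗ[ZMod 2] T.H n q
  | 0, 0 => ct.toLinearMap.smulRight T.one
  | 0, _ + 1 => 0
  | n + 1, q' => (US T n q').comp
      (LinearMap.pi (fun q : Fin ((q' + 1) / 2) => (L n q).comp (TI.zc n (q' - 2 * q - 1))))

lemma L_succ (n q' : ℕ) (G : D (n + 1)) : L T (n + 1) q' G = ∑ q : Fin ((q' + 1) / 2),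
    T.up n (q' - 2 * q) q q' (by have := q.2; omega) (L T n q (TI.zc n (q' - 2 * q - 1) G)) := by
  rw [L, LinearMap.comp_apply, US_apply]
  rfl

lemma L_mem : ∀ (n q : ℕ) (G : D n), L T n q G ∈ M T n q := by
  intro n
  induction n with
  | zero => intro q G; exact Submodule.mem_top
  | succ n ih =>
    intro q' G
    rw [L_succ]
    refine Submodule.sum_mem _ (fun q _ => ?_)
    exact up_mem T _ (by have := q.2; omega) (ih _ _)

lemma zc_q0_mul_succ (n a : ℕ) (G : D (n + 1)) :
    (zx n (q (n + 1) 0 * G)).coeff (a + 1) = q n 0 * TI.zc n a G := by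
  rw [map_mul, zx_q, qm_zero, map_zero, zero_add, pow_zero, pow_one, mul_assoc, coeff_X_mul,
    coeff_C_mul]
  rfl

lemma zc_q0_mul_zero (n : ℕ) (G : D (n + 1)) : (zx n (q (n + 1) 0 * G)).coeff 0 = 0 := by
  rw [map_mul, zx_q, qm_zero, map_zero, zero_add, pow_zero, pow_one, mul_assoc, coeff_X_mul_zero]

/-- `io (q_0 G) = Σ_a x_0^(a+1) St (q_0 G_a)` -/
lemma io_q0_sum (n : ℕ) (G : D (n + 1)) : ∃ N₀ : ℕ, ∀ N, N₀ ≤ N →
    io (n + 1) (q (n + 1) 0 * G) =
      ∑ a ∈ Finset.range N, (MvPolynomial.X 0 : S (n + 1)) ^ (a + 1) *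
        St n (io n (q n 0 * TI.zc n a G)) := by
  refine ⟨(zx n (q (n + 1) 0 * G)).natDegree, fun N hN => ?_⟩
  rw [io_succ_sum (q (n + 1) 0 * G) (N := N + 1) (by omega), Finset.sum_range_succ',
    zc_q0_mul_zero, map_zero, map_zero, mul_zero, add_zero]
  exact Finset.sum_congr rfl (fun a _ => by rw [zc_q0_mul_succ])

/-- the restriction of the lift -/
theorem r_L : ∀ (n p : ℕ) (G : D n), T.r n p (L T n p G) =
    MvPolynomial.homogeneousComponent p (io n (q n 0 * G)) := by
  intro n
  induction n with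
  | zero =>
    intro q' G
    rw [q_self, one_mul, io_zero]
    have h1 : MvPolynomial.IsHomogeneous (algebraMap (ZMod 2) (S 0) (ct G)) 0 :=
      MvPolynomial.isHomogeneous_C _ _
    rcases q' with _ | q'
    · rw [hc_self h1, L, LinearMap.smulRight_apply, map_smul, T.r_one,
        Algebra.algebraMap_eq_smul_one]
      rfl
    · rw [hc_ne h1 (by omega), L, LinearMap.zero_apply, map_zero]
  | succ n ih =>
    intro q' G
    obtain ⟨N₀, hN₀⟩ := io_q0_sum n G
    rw [hN₀ (N₀ + q' + 1) (by omega), L_succ, map_sum, map_sum]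
    refine Finset.sum_of_injOn (fun q : Fin ((q' + 1) / 2) => q' - 2 * (q : ℕ) - 1) ?_ ?_ ?_ ?_
    · intro x _ y _ hxy
      simp only at hxy
      have := x.2; have := y.2
      exact Fin.ext (by omega)
    · intro x _
      have := x.2
      simp only [Finset.coe_range, Set.mem_Iio]
      omega
    · intro a _ ha
      refine hc_XSt_zero _ _ (fun q hq => ha ?_) _
      refine ⟨⟨q, by omega⟩, by simp, ?_⟩
      simp only
      omega
    · intro q _
      have := q.2
      rw [T.r_up, ih, hc_XSt (q' - 2 * (q : ℕ) - 1 + 1) q q' (by omega)]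
      congr 2
      omega

theorem r_L_hom {n k q' : ℕ} {G : D n} (hG : Hom n k G) (h : k + (2 ^ n - 1) = q') :
    T.r n q' (L T n q' G) = io n (q n 0 * G) := by
  have h1 : Hom n ((q' : ℕ) : ℤ) (q n 0 * G) := by
    refine ((Hom.q n 0).mul hG).congr ?_
    have : 1 ≤ 2 ^ n := Nat.one_le_two_pow
    push_cast [← h, Nat.cast_sub this]
    ring
  rw [r_L, hc_self (io_homog _ _ h1)]

theorem L_zero {n : ℕ} {k : ℤ} {q' : ℕ} {G : D n} (hG : Hom n k G)
    (h : k + (2 ^ n - 1) ≠ q') : L T n q' G = 0 := by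
  rcases lt_or_ge k 0 with hk | hk
  · rw [hG.eq_zero_of_neg hk, map_zero]
  · obtain ⟨k, rfl⟩ := Int.eq_ofNat_of_zero_le hk
    refine r_inj_M T n q' _ (L_mem T n q' G) ?_
    have h2 : 1 ≤ 2 ^ n := Nat.one_le_two_pow
    have h1 : Hom n ((k + (2 ^ n - 1) : ℕ) : ℤ) (q n 0 * G) := by
      refine ((Hom.q n 0).mul hG).congr ?_
      push_cast [Nat.cast_sub h2]
      ring
    rw [r_L, hc_ne (io_homog _ _ h1)]
    intro h3
    apply h
    rw [h3]
    push_cast [Nat.cast_sub h2]
    ring

/-- the lift is compatible with the squares -/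
theorem sq_L (n b q' q'' : ℕ) (h : q' + b = q'') (G : D n) :
    T.sq n b q' q'' h (L T n q' G) = L T n q'' (DS.s n 1 b G) := by
  refine r_eq_M T (sq_mem T n b q' q'' h _ (L_mem T n q' G)) (L_mem T n q'' _) ?_
  rw [T.r_sq, r_L, r_L, ← hc_Sq b q' q'' h, Sq_io, DS.s_q0]

/-- the squares above the degree vanish -/
theorem L_s_zero (n b q' : ℕ) (h : q' < b) (G : D n) : L T n q' (DS.s n 1 b G) = 0 := by
  refine r_inj_M T n q' _ (L_mem T n q' _) ?_
  rw [r_L, ← zero_add 1, ← DS.s_q0, ← Sq_io, hc_Sq_zero b q' h]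

end Vale.Agent.P263.TI
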