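import Vale.Agent.P263.TI.TopDef
import Vale.Agent.P263.EX.GE5
import Vale.Agent.P263.EX.GE4

/-!
# P263, section [I]: sums over families of matrices (complete flags)
-/

namespace Vale.Agent.P263.TI

open Finset Polynomial Vale.Agent.P263.LZ Vale.Agent.P263.EX Vale.Agent.P263.EX.GE

/-- The transform of `St (io Y)` by an invertible matrix depends on its first row only. -/
theorem sub_Sta {n : ℕ} (M N : Matrix (Fin (n + 1)) (Fin (n + 1)) (ZMod 2)) (h : M * N = 1)
    (Y : D n) : sub M (Sta n (io n Y)) = Stv n (M 0) Y := by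
  have h1 : Sta n = StS n := by
    refine MvPolynomial.algHom_ext (fun i => ?_)
    rw [Sta_X, StS, MvPolynomial.aeval_X, tws]
    ring
  rw [h1]
  exact StS_lin M N h Y

lemma row_ne_zero {n : ℕ} (M N : Matrix (Fin (n + 1)) (Fin (n + 1)) (ZMod 2)) (h : M * N = 1) :
    M 0 ≠ 0 := by
  intro h0
  have h1 := congrFun (congrFun h 0) 0
  rw [Matrix.mul_apply, h0, Matrix.one_apply_eq] at h1
  simp at h1

lemma odd_nsmul {A : Type*} [AddCommGroup A] [Module (ZMod 2) A] {k : ℕ} (hk : Odd k) (a : A) :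
    k • a = a := by
  obtain ⟨l, rfl⟩ := hk
  have h2 : ∀ b : A, b + b = 0 := by
    intro b
    have h : (2 : ZMod 2) • b = (0 : ZMod 2) • b := by congr 1
    rw [zero_smul, two_smul] at h
    exact h
  rw [add_nsmul, mul_comm, mul_nsmul, one_nsmul, two_nsmul, h2, zero_add]

/-- A family of invertible matrices such that each nonzero vector is the first row of an odd number
of them. -/
theorem sum_odd_family {n : ℕ} {ι : Type*} [Fintype ι]
    (M N : ι → Matrix (Fin (n + 1)) (Fin (n + 1)) (ZMod 2)) (hMN : ∀ i, M i * N i = 1)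
    (hodd : ∀ v : Fin (n + 1) → ZMod 2, v ≠ 0 → Odd (univ.filter (fun i => M i 0 = v)).card)
    (Y : D n) :
    ∑ i, sub (M i) (Sta n (io n Y)) =
      ∑ v ∈ univ.erase (0 : Fin (n + 1) → ZMod 2), Stv n v Y := by
  have h1 : ∀ i ∈ (univ : Finset ι), M i 0 ∈ univ.erase (0 : Fin (n + 1) → ZMod 2) :=
    fun i _ => Finset.mem_erase.mpr ⟨row_ne_zero _ _ (hMN i), Finset.mem_univ _⟩
  rw [← Finset.sum_fiberwise_of_maps_to h1]
  refine Finset.sum_congr rfl (fun v hv => ?_)
  have h2 : ∀ i ∈ univ.filter (fun i => M i 0 = v), sub (M i) (Sta n (io n Y)) = Stv n v Y := by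
    intro i hi
    rw [sub_Sta _ _ (hMN i), (Finset.mem_filter.mp hi).2]
  rw [Finset.sum_congr rfl h2, Finset.sum_const]
  exact odd_nsmul (hodd v (Finset.ne_of_mem_erase hv)) _

/-- An odd family of invertible matrices fixes the image of the Dickson algebra. -/
theorem sum_family_io {n : ℕ} {ι : Type*} [Fintype ι]
    (M N : ι → Matrix (Fin n) (Fin n) (ZMod 2)) (hMN : ∀ i, M i * N i = 1)
    (hodd : Odd (Fintype.card ι)) (G : D n) : ∑ i, sub (M i) (io n G) = io n G := by
  rw [Finset.sum_congr rfl (fun i _ => Inv_io G (M i) (N i) (hMN i)), Finset.sum_const,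
    Finset.card_univ]
  exact odd_nsmul hodd _

end Vale.Agent.P263.TI
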