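import Vale.Agent.P263.EX.GE3
import Vale.Agent.P263.EX.DS1

/-!
P263, section I (helper387), part I4: power sums of linear forms and the sum over the nonzero linear
forms `v` of `St_v(Y)`.
-/

namespace Vale.Agent.P263.TI

open Polynomial Finset Vale.Agent.P263.LZ Vale.Agent.P263.EX Vale.Agent.P263.EX.GE

section ring

variable {R : Type*} [CommRing R] [Algebra (ZMod 2) R]

lemma neg_eq' (a : R) : -a = a := by
  have := add_self' a
  linear_combination -this

/-- `∑_j c_j v^(2^j) = 0` for `v` in the span -/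
lemma dv_lf {n : ℕ} (x : Fin n → R) (v : Fin n → ZMod 2) : dv n x (lf v x) = 0 := by
  rw [dv_eq_prod]
  exact Finset.prod_eq_zero (Finset.mem_univ v) (add_self' _)

/-- the product without one factor -/
lemma prod_erase_eq {n : ℕ} (x : Fin n → R) (v : Fin n → ZMod 2) :
    ∏ w ∈ univ.erase v, (X + C (lf w x)) =
      ∑ j ∈ range (n + 1), C (dc n x j) *
        ∑ i ∈ range (2 ^ j), X ^ i * C (lf v x) ^ (2 ^ j - 1 - i) := by
  have hreg : IsLeftRegular (X + C (lf v x) : R[X]) := (monic_X_add_C _).isRegular.left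
  apply hreg
  show (X + C (lf v x)) * _ = (X + C (lf v x)) * _
  rw [Finset.mul_prod_erase univ (fun w => (X + C (lf w x) : R[X])) (Finset.mem_univ v)]
  have h1 : ∏ w : Fin n → ZMod 2, (X + C (lf w x) : R[X]) =
      ∑ j ∈ range (n + 1), C (dc n x j) * X ^ (2 ^ j) := dpoly_eq x
  have h2 : (∑ j ∈ range (n + 1), C (dc n x j) * C (lf v x) ^ (2 ^ j) : R[X]) = 0 := by
    have h := congrArg (C : R → R[X]) (dv_lf x v)
    rw [dv, map_sum, map_zero] at h
    rw [← h]
    exact Finset.sum_congr rfl fun j _ => by rw [C_mul, C_pow]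
  rw [h1, ← add_zero (∑ j ∈ range (n + 1), C (dc n x j) * X ^ (2 ^ j)), ← h2,
    ← Finset.sum_add_distrib, Finset.mul_sum]
  refine Finset.sum_congr rfl fun j _ => ?_
  have h3 := Commute.geom_sum₂_mul (Commute.all (X : R[X]) (C (lf v x))) (2 ^ j)
  have h4 : (X : R[X]) - C (lf v x) = X + C (lf v x) := by
    rw [sub_eq_add_neg, ← C_neg, neg_eq']
  have h5 : (X : R[X]) ^ (2 ^ j) - C (lf v x) ^ (2 ^ j) = X ^ (2 ^ j) + C (lf v x) ^ (2 ^ j) := by
    rw [sub_eq_add_neg, ← C_pow, ← C_neg, neg_eq']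
  rw [h4, h5] at h3
  linear_combination (-(C (dc n x j))) * h3

/-- the power sums -/
def psum {n : ℕ} (x : Fin n → R) (e : ℕ) : R := ∑ v : Fin n → ZMod 2, lf v x ^ e

/-- Newton identities from `f' = q_0` -/
lemma psum_newton {n : ℕ} (x : Fin n → R) (a : ℕ) :
    ∑ j ∈ range (n + 1), (if a < 2 ^ j then dc n x j * psum x (2 ^ j - 1 - a) else 0) =
      if a = 0 then dc n x 0 else 0 := by
  have h1 : derivative (∏ w : Fin n → ZMod 2, (X + C (lf w x) : R[X])) =
      ∑ v : Fin n → ZMod 2, ∑ j ∈ range (n + 1), C (dc n x j) *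
        ∑ i ∈ range (2 ^ j), X ^ i * C (lf v x) ^ (2 ^ j - 1 - i) := by
    rw [derivative_prod_finset]
    refine Finset.sum_congr rfl fun v _ => ?_
    rw [prod_erase_eq]
    simp
  have h2 : ∏ w : Fin n → ZMod 2, (X + C (lf w x) : R[X]) =
      ∑ j ∈ range (n + 1), C (dc n x j) * X ^ (2 ^ j) := dpoly_eq x
  have h3 : derivative (∑ j ∈ range (n + 1), C (dc n x j) * (X : R[X]) ^ (2 ^ j)) =
      C (dc n x 0) := by
    rw [derivative_sum, Finset.sum_range_succ']
    have h4 : ∀ j ∈ range n, derivative (C (dc n x (j + 1)) * (X : R[X]) ^ (2 ^ (j + 1))) = 0 := by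
      intro j _
      rw [derivative_C_mul_X_pow]
      have h5 : ((2 ^ (j + 1) : ℕ) : R) = 0 := by
        rw [pow_succ]; push_cast
        have := add_self' (1 : R)
        linear_combination (2 ^ j) * this
      rw [h5, mul_zero, C_0, zero_mul]
    rw [Finset.sum_eq_zero h4, zero_add, derivative_C_mul_X_pow, pow_zero]
    simp
  rw [h2, h3] at h1
  have h6 := congrArg (fun p : R[X] => p.coeff a) h1
  simp only [coeff_C, finsetSum_coeff] at h6
  rw [h6, Finset.sum_comm]
  refine Finset.sum_congr rfl fun j _ => ?_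
  rw [psum, Finset.mul_sum]
  have h7 : ∀ v : Fin n → ZMod 2, (C (dc n x j) *
      ∑ i ∈ range (2 ^ j), X ^ i * C (lf v x) ^ (2 ^ j - 1 - i)).coeff a =
      if a < 2 ^ j then dc n x j * lf v x ^ (2 ^ j - 1 - a) else 0 := by
    intro v
    rw [coeff_C_mul, finsetSum_coeff]
    have h8 : ∀ i ∈ range (2 ^ j), (X ^ i * C (lf v x) ^ (2 ^ j - 1 - i)).coeff a =
        if i = a then lf v x ^ (2 ^ j - 1 - a) else 0 := by
      intro i _
      rw [← C_pow, coeff_mul_C, coeff_X_pow]
      by_cases h : a = i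
      · subst h; simp
      · rw [if_neg h, if_neg (fun h' => h h'.symm), zero_mul]
    rw [Finset.sum_congr rfl h8, Finset.sum_ite_eq' (range (2 ^ j)) a]
    by_cases h : a < 2 ^ j
    · rw [if_pos (mem_range.mpr h), if_pos h]
    · rw [if_neg (fun h' => h (mem_range.mp h')), if_neg h, mul_zero]
  rw [Finset.sum_congr rfl fun v _ => h7 v]
  by_cases h : a < 2 ^ j
  · simp only [if_pos h]
  · simp only [if_neg h, Finset.sum_const_zero]

lemma psum_high {n : ℕ} (x : Fin n → R) (e : ℕ) (he : 2 ^ n ≤ e) :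
    psum x e = ∑ j ∈ range n, dc n x j * psum x (e - (2 ^ n - 2 ^ j)) := by
  unfold psum
  simp only [Finset.mul_sum]
  rw [Finset.sum_comm]
  refine Finset.sum_congr rfl fun v _ => ?_
  have h := dv_lf x v
  rw [dv, Finset.sum_range_succ, dc_self, one_mul] at h
  obtain ⟨k, rfl⟩ : ∃ k, e = k + 2 ^ n := ⟨e - 2 ^ n, by omega⟩
  have h2 : lf v x ^ (2 ^ n) = ∑ j ∈ range n, dc n x j * lf v x ^ (2 ^ j) := by
    have h3 := add_self' (lf v x ^ (2 ^ n))
    linear_combination h3 - h
  rw [pow_add, h2, Finset.mul_sum]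
  refine Finset.sum_congr rfl fun j hj => ?_
  have hj' : (2 : ℕ) ^ j ≤ 2 ^ n := Nat.pow_le_pow_right (by norm_num) (by simp at hj; omega)
  have h4 : k + 2 ^ n - (2 ^ n - 2 ^ j) = k + 2 ^ j := by
    generalize (2 : ℕ) ^ n = A at *
    generalize (2 : ℕ) ^ j = B at *
    omega
  rw [h4, pow_add]
  ring

end ring

/-- Power sums of the linear forms are multiples of `q_0`. -/
theorem psum_mem (n e : ℕ) : ∃ g : D n, Hom n ((e : ℤ) - (2 ^ n - 1)) g ∧
    psum (fun i => (MvPolynomial.X i : S n)) e = io n (q n 0 * g) := by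
  induction e using Nat.strong_induction_on with
  | _ e ih =>
    -- the common recursion
    have hrec : psum (fun i => (MvPolynomial.X i : S n)) e =
        (if e = 2 ^ n - 1 then io n (q n 0) else 0) +
        ∑ j ∈ range n, (if 2 ^ n - 2 ^ j ≤ e then
          io n (q n j) * psum (fun i => (MvPolynomial.X i : S n)) (e - (2 ^ n - 2 ^ j)) else 0) := by
      have hpos : 1 ≤ 2 ^ n := Nat.one_le_two_pow
      rcases Nat.lt_or_ge e (2 ^ n) with he | he
      · have h := psum_newton (fun i => (MvPolynomial.X i : S n)) (2 ^ n - 1 - e)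
        rw [Finset.sum_range_succ, if_pos (by omega), dc_self, one_mul] at h
        have e1 : 2 ^ n - 1 - (2 ^ n - 1 - e) = e := by omega
        rw [e1] at h
        have e2 : ∀ j ∈ range n, (if 2 ^ n - 1 - e < 2 ^ j then
            dc n (fun i => (MvPolynomial.X i : S n)) j *
              psum (fun i => (MvPolynomial.X i : S n)) (2 ^ j - 1 - (2 ^ n - 1 - e)) else 0) =
            (if 2 ^ n - 2 ^ j ≤ e then
          io n (q n j) * psum (fun i => (MvPolynomial.X i : S n)) (e - (2 ^ n - 2 ^ j)) else 0) := by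
          intro j hj
          have hj' : (2 : ℕ) ^ j ≤ 2 ^ n :=
            Nat.pow_le_pow_right (by norm_num) (by simp at hj; omega)
          have hj1 : 1 ≤ 2 ^ j := Nat.one_le_two_pow
          rw [io_q]
          by_cases h : 2 ^ n - 2 ^ j ≤ e
          · rw [if_pos h, if_pos (by omega)]
            congr 2
            omega
          · rw [if_neg h, if_neg (by omega)]
        rw [Finset.sum_congr rfl e2] at h
        have e3 : (if 2 ^ n - 1 - e = 0 then dc n (fun i => (MvPolynomial.X i : S n)) 0 else 0) =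
            (if e = 2 ^ n - 1 then io n (q n 0) else 0) := by
          rw [io_q]
          by_cases h' : e = 2 ^ n - 1
          · rw [if_pos h', if_pos (by omega)]
          · rw [if_neg h', if_neg (by omega)]
        rw [e3] at h
        rw [← h]
        generalize (∑ j ∈ range n, (if 2 ^ n - 2 ^ j ≤ e then
          io n (q n j) * psum (fun i => (MvPolynomial.X i : S n)) (e - (2 ^ n - 2 ^ j)) else 0)) = A
        have := add_self' A
        linear_combination -this
      · rw [if_neg (by omega), zero_add, psum_high _ e he]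
        refine Finset.sum_congr rfl fun j hj => ?_
        rw [if_pos (le_trans (Nat.sub_le _ _) he), io_q]
    have hj0 : ∀ j ∈ range n, ∃ g : D n, Hom n ((e : ℤ) - (2 ^ n - 1)) g ∧
        (if 2 ^ n - 2 ^ j ≤ e then
          io n (q n j) * psum (fun i => (MvPolynomial.X i : S n)) (e - (2 ^ n - 2 ^ j)) else 0) =
        io n (q n 0 * g) := by
      intro j hj
      have hlt : (2 : ℕ) ^ j < 2 ^ n := Nat.pow_lt_pow_right (by norm_num) (by simpa using hj)
      by_cases h : 2 ^ n - 2 ^ j ≤ e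
      · obtain ⟨g, hg, hg2⟩ := ih (e - (2 ^ n - 2 ^ j)) (by omega)
        refine ⟨q n j * g, ?_, ?_⟩
        · refine ((Hom.q n j).mul hg).congr ?_
          have : ((e - (2 ^ n - 2 ^ j) : ℕ) : ℤ) = (e : ℤ) - (2 ^ n - 2 ^ j) := by
            rw [Nat.cast_sub h, Nat.cast_sub hlt.le]; push_cast; ring
          rw [this]; ring
        · rw [if_pos h, hg2, map_mul, map_mul, map_mul]; ring
      · exact ⟨0, Hom.zero _ _, by rw [if_neg h]; simp⟩
    choose! g hg1 hg2 using hj0
    refine ⟨(if e = 2 ^ n - 1 then 1 else 0) + ∑ j ∈ range n, g j, ?_, ?_⟩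
    · refine Hom.add ?_ (Hom.sum _ _ fun j hj => hg1 j hj)
      split_ifs with h
      · refine (Hom.one n).congr ?_
        have h1 : (1 : ℕ) ≤ 2 ^ n := Nat.one_le_two_pow
        rw [h, Nat.cast_sub h1]; push_cast; ring
      · exact Hom.zero _ _
    · rw [hrec, Finset.sum_congr rfl hg2, mul_add, map_add, Finset.mul_sum, map_sum]
      congr 1
      split_ifs
      · rw [mul_one]
      · rw [mul_zero, map_zero]

/-! ### `St_v` -/

/-- `sv (q_i) = ∑_{l > i} q_l X^(2^l - 2^(i+1))`: the value at a nonzero linear form `v` is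
`St_v (q_i)`. -/
noncomputable def sv (n : ℕ) : D n →ₐ[ZMod 2] (D (n + 1))[X] :=
  LZ.lift fun i : Fin n =>
    ∑ l ∈ Finset.Ioc (i : ℕ) (n + 1), C (q (n + 1) l) * X ^ (2 ^ l - 2 ^ ((i : ℕ) + 1))

lemma sv_q {n i : ℕ} (hi : i ≤ n) : sv n (q n i) =
    ∑ l ∈ Finset.Ioc i (n + 1), C (q (n + 1) l) * X ^ (2 ^ l - 2 ^ (i + 1)) := by
  rcases hi.lt_or_eq with h | rfl
  · rw [q_lt h, sv, lift_gen]
  · have h1 : Finset.Ioc i (i + 1) = {i + 1} := by
      ext a; simp only [Finset.mem_Ioc, Finset.mem_singleton]; omega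
    rw [q_self, map_one, h1, Finset.sum_singleton, q_self, Nat.sub_self, pow_zero, C_1, mul_one]

lemma sv_rec {n i : ℕ} (hi : i < n) : sv n (q n i) =
    C (q (n + 1) (i + 1)) + X ^ (2 ^ (i + 1)) * sv n (q n (i + 1)) := by
  rw [sv_q (by omega : i ≤ n), sv_q (by omega : i + 1 ≤ n)]
  have h1 : Finset.Ioc i (n + 1) = insert (i + 1) (Finset.Ioc (i + 1) (n + 1)) := by
    ext a; simp only [Finset.mem_insert, Finset.mem_Ioc]; omega
  rw [h1, Finset.sum_insert (by simp), Nat.sub_self, pow_zero, mul_one, Finset.mul_sum]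
  refine congrArg₂ (· + ·) rfl (Finset.sum_congr rfl fun l hl => ?_)
  have hl' : (2 : ℕ) ^ (i + 2) ≤ 2 ^ l :=
    Nat.pow_le_pow_right (by norm_num) (by simp at hl; omega)
  have h2 : 2 ^ l - 2 ^ (i + 1) = 2 ^ (i + 1) + (2 ^ l - 2 ^ (i + 1 + 1)) := by
    have h3 : (2 : ℕ) ^ (i + 2) = 2 ^ (i + 1) + 2 ^ (i + 1) := by rw [pow_succ 2 (i + 1)]; ring
    have h4 : (2 : ℕ) ^ (i + 1 + 1) = 2 ^ (i + 1) + 2 ^ (i + 1) := h3
    rw [h3] at hl'
    rw [h4]
    clear h3 h4 h1
    generalize (2 : ℕ) ^ (i + 1) = A at *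
    generalize (2 : ℕ) ^ l = B at *
    omega
  rw [h2, pow_add]; ring

section twist

variable {R : Type*} [CommRing R] [Algebra (ZMod 2) R]

/-- the elements `x_{i+1}^2 + x_0 x_{i+1}` -/
def tws {n : ℕ} (x : Fin (n + 1) → R) : Fin n → R := fun i => x i.succ ^ 2 + x 0 * x i.succ

lemma dv_tws {n : ℕ} (x : Fin (n + 1) → R) (y : R) :
    dv (n + 1) x y = dv n (tws x) (y ^ 2 + x 0 * y) := by
  rw [dv_eq_prod, dv_eq_prod, GE.prod_cons, ← Finset.prod_mul_distrib]
  refine Finset.prod_congr rfl fun v _ => ?_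
  have h1 : lf v (tws x) = lf v (fun i => x i.succ) ^ 2 + x 0 * lf v (fun i => x i.succ) := by
    unfold tws
    rw [lf_add v (fun i => x i.succ ^ 2) (fun i => x 0 * x i.succ), lf_mul, lf_sq]
  rw [lf_cons, lf_cons, zero_smul, one_smul, zero_add, h1]
  generalize lf v (fun i => x i.succ) = L
  have := add_self' (y * L)
  linear_combination this

/-- the Dickson elements of rank `n+1` in terms of the twisted ones -/
lemma dc_tws {n : ℕ} (x : Fin (n + 1) → R) (j : ℕ) (hj : j ≤ n + 1) :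
    dc (n + 1) x j = (if j = 0 then 0 else dc n (tws x) (j - 1)) +
      x 0 ^ (2 ^ j) * dc n (tws x) j := by
  have h := dv_tws (fun i => (C (x i) : R[X])) (X : R[X])
  rw [dv_C (n + 1) x X] at h
  have h1 : (tws (fun i => (C (x i) : R[X])) : Fin n → R[X]) = fun i => C (tws x i) := by
    funext i; unfold tws; rw [C_add, C_mul, C_pow]
  rw [h1, dv_C n (tws x)] at h
  have h2 : dc (n + 1) x j = (∑ l ∈ range (n + 1), C (dc n (tws x) l) *
      ((X : R[X]) ^ 2 + C (x 0) * X) ^ (2 ^ l)).coeff (2 ^ j) := by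
    rw [← h, coeff_add_poly (n + 1 + 1) _ j (by omega)]
  rw [h2]
  have h3 : (∑ l ∈ range (n + 1), C (dc n (tws x) l) * ((X : R[X]) ^ 2 + C (x 0) * X) ^ (2 ^ l)) =
      (∑ l ∈ range (n + 1), C (dc n (tws x) l) * (X : R[X]) ^ (2 ^ (l + 1))) +
      (∑ l ∈ range (n + 1), C (x 0 ^ (2 ^ l) * dc n (tws x) l) * (X : R[X]) ^ (2 ^ l)) := by
    rw [← Finset.sum_add_distrib]
    refine Finset.sum_congr rfl fun l _ => ?_
    rw [add_pow_two_pow, mul_pow, ← pow_mul, pow_succ' 2 l, C_mul, C_pow]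
    ring
  rw [h3, coeff_add]
  congr 1
  · rw [coeff_add_poly' (n + 1) _ j (by omega)]
  · rcases Nat.lt_or_ge j (n + 1) with h4 | h4
    · rw [coeff_add_poly (n + 1) _ j h4]
    · have hj' : j = n + 1 := le_antisymm hj h4
      subst hj'
      rw [dc_gt n (tws x) (n + 1) (by omega), mul_zero, finsetSum_coeff]
      refine Finset.sum_eq_zero fun l hl => ?_
      rw [coeff_C_mul, coeff_X_pow, if_neg, mul_zero]
      intro h5
      have := Nat.pow_right_injective (le_refl 2) h5
      have h6 := mem_range.mp hl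
      omega

/-- `Y` evaluated at the twisted elements is the value of `sv Y` at `x_0`. -/
theorem ev_tws {n : ℕ} (x : Fin (n + 1) → R) (Y : D n) :
    ev (tws x) Y = (sv n Y).eval₂ ((ev x : D (n + 1) →ₐ[ZMod 2] R) : D (n + 1) →+* R) (x 0) := by
  have key : ∀ k, k ≤ n → dc n (tws x) (n - k) =
      (sv n (q n (n - k))).eval₂ ((ev x : D (n + 1) →ₐ[ZMod 2] R) : D (n + 1) →+* R) (x 0) := by
    intro k
    induction k with
    | zero =>
      intro _
      rw [Nat.sub_zero, dc_self, q_self, map_one, eval₂_one]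
    | succ k ih =>
      intro hk
      have h1 := ih (by omega)
      have h2 : n - k = n - (k + 1) + 1 := by omega
      rw [h2] at h1
      rw [sv_rec (by omega : n - (k + 1) < n), eval₂_add, eval₂_mul, eval₂_C, eval₂_pow, eval₂_X,
        ← h1]
      have h3 := dc_tws x (n - (k + 1) + 1) (by omega)
      rw [if_neg (by omega), Nat.add_sub_cancel] at h3
      have h4 : ((ev x : D (n + 1) →ₐ[ZMod 2] R) : D (n + 1) →+* R)
          (q (n + 1) (n - (k + 1) + 1)) = dc (n + 1) x (n - (k + 1) + 1) := ev_q x _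
      rw [h4, h3]
      have h5 := add_self' (x 0 ^ 2 ^ (n - (k + 1) + 1) * dc n (tws x) (n - (k + 1) + 1))
      linear_combination -h5
  refine D_induction (P := fun Y => ev (tws x) Y =
    (sv n Y).eval₂ ((ev x : D (n + 1) →ₐ[ZMod 2] R) : D (n + 1) →+* R) (x 0)) ?_ ?_ ?_ ?_ Y
  · rw [map_zero, map_zero, eval₂_zero]
  · rw [map_one, map_one, eval₂_one]
  · intro a b ha hb; rw [map_add, map_add, eval₂_add, ha, hb]
  · intro a i ha
    have h := key (n - i) (by omega)
    have h6 : n - (n - (i : ℕ)) = i := by have := i.2; omega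
    rw [h6] at h
    rw [map_mul, map_mul, eval₂_mul, ha, DS.gen_eq, ev_q, h]

end twist

/-! ### the sum over the nonzero linear forms -/

/-- a polynomial of degree below `M` as an explicit sum -/
lemma eval₂_range {A B : Type*} [CommRing A] [CommRing B] (φ : A →+* B) (v : B) (p : A[X])
    {M : ℕ} (hM : p.natDegree < M) :
    p.eval₂ φ v = ∑ e ∈ range M, φ (p.coeff e) * v ^ e := by
  rw [eval₂_eq_sum_range' φ hM]

/-- the coefficients of `sv Y` are homogeneous -/
lemma sv_phom {n : ℕ} {k : ℤ} {Y : D n} (hY : Hom n k Y) : PHom (n + 1) 1 (2 * k) (sv n Y) := by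
  have h := hom_map (fun k p => PHom (n + 1) 1 (2 * k) p)
    (fun k => PHom.zero (n + 1) 1 (2 * k)) (fun k _ _ h h' => PHom.add h h')
    ((PHom.one (n + 1) 1).congr (by ring))
    (fun k l _ _ h h' => (PHom.mul h h').congr (by ring)) (sv n : D n →+* (D (n + 1))[X]) ?_ Y k hY
  · exact h
  · intro j
    show PHom (n + 1) 1 _ (sv n (gen j))
    rw [DS.gen_eq, sv_q j.2.le]
    refine PHom.sum _ _ fun l hl => ?_
    have hl' : (2 : ℕ) ^ ((j : ℕ) + 1) ≤ 2 ^ l :=
      Nat.pow_le_pow_right (by norm_num) (by simp at hl; omega)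
    refine ((PHom.C (Hom.q (n + 1) l)).mul ((PHom.X (n + 1) 1).pow _)).congr ?_
    simp only [w]
    push_cast [hl']
    rw [pow_succ, pow_succ]
    ring

lemma sv_coeff_zero {n : ℕ} (Y : D n) : (sv n Y).coeff 0 = sh n Y := by
  refine D_induction (P := fun Y => (sv n Y).coeff 0 = sh n Y) ?_ ?_ ?_ ?_ Y
  · rw [map_zero, map_zero, coeff_zero]
  · rw [map_one, map_one, coeff_one_zero]
  · intro a b ha hb; rw [map_add, map_add, coeff_add, ha, hb]
  · intro a i ha
    rw [map_mul, map_mul, mul_coeff_zero, ha, DS.gen_eq, sh_q, sv_rec i.2, coeff_add,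
      coeff_C_zero, mul_coeff_zero, coeff_X_pow, if_neg (by positivity), zero_mul, add_zero]

/-- Part I4: the sum over the nonzero linear forms `v` of `St_v (Y)` is `j Y + q_0 Z`,
`j : q_i ↦ q_{i+1}`. -/
theorem sum_St {n : ℕ} {k : ℤ} (Y : D n) (hY : Hom n k Y) :
    ∃ Z : D (n + 1), Hom (n + 1) (2 * k - (2 ^ (n + 1) - 1)) Z ∧
      ∑ v ∈ univ.erase (0 : Fin (n + 1) → ZMod 2),
        (sv n Y).eval₂ ((io (n + 1) : D (n + 1) →ₐ[ZMod 2] S (n + 1)) : D (n + 1) →+* S (n + 1))
          (lf v (fun i => (MvPolynomial.X i : S (n + 1)))) =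
      io (n + 1) (sh n Y + q (n + 1) 0 * Z) := by
  set φ : D (n + 1) →+* S (n + 1) := ((io (n + 1) : D (n + 1) →ₐ[ZMod 2] S (n + 1)) :
    D (n + 1) →+* S (n + 1)) with hφ
  set M := (sv n Y).natDegree + 1 with hM
  have h1 : ∀ v : Fin (n + 1) → ZMod 2,
      (sv n Y).eval₂ φ (lf v (fun i => (MvPolynomial.X i : S (n + 1)))) =
      ∑ e ∈ range M, φ ((sv n Y).coeff e) * lf v (fun i => (MvPolynomial.X i : S (n + 1))) ^ e :=
    fun v => eval₂_range φ _ _ (Nat.lt_succ_self _)
  have hc0 : (sv n Y).coeff 0 = sh n Y := sv_coeff_zero Y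
  have h2 : ∑ v : Fin (n + 1) → ZMod 2,
      (sv n Y).eval₂ φ (lf v (fun i => (MvPolynomial.X i : S (n + 1)))) =
      ∑ e ∈ range M, φ ((sv n Y).coeff e) *
        psum (fun i => (MvPolynomial.X i : S (n + 1))) e := by
    rw [Finset.sum_congr rfl fun v _ => h1 v, Finset.sum_comm]
    refine Finset.sum_congr rfl fun e _ => ?_
    rw [psum, Finset.mul_sum]
  choose g hg1 hg2 using psum_mem (n + 1)
  refine ⟨∑ e ∈ range M, (sv n Y).coeff e * g e, ?_, ?_⟩
  · refine Hom.sum _ _ fun e _ => ?_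
    refine ((sv_phom hY e).mul (hg1 e)).congr ?_
    ring
  · have h3 := Finset.add_sum_erase univ (fun v : Fin (n + 1) → ZMod 2 =>
      (sv n Y).eval₂ φ (lf v (fun i => (MvPolynomial.X i : S (n + 1))))) (Finset.mem_univ 0)
    have h4 : (sv n Y).eval₂ φ (lf 0 (fun i => (MvPolynomial.X i : S (n + 1)))) =
        io (n + 1) (sh n Y) := by
      rw [h1, lf_zero, Finset.sum_eq_single 0]
      · rw [pow_zero, mul_one, hc0]; rfl
      · intro e _ he; rw [zero_pow he, mul_zero]
      · intro h; exact absurd (mem_range.mpr (Nat.succ_pos _)) h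
    have h5 : ∑ e ∈ range M, φ ((sv n Y).coeff e) *
        psum (fun i => (MvPolynomial.X i : S (n + 1))) e =
        io (n + 1) (q (n + 1) 0 * ∑ e ∈ range M, (sv n Y).coeff e * g e) := by
      rw [Finset.mul_sum, map_sum]
      refine Finset.sum_congr rfl fun e _ => ?_
      rw [hg2 e, map_mul, map_mul, map_mul]
      show io (n + 1) ((sv n Y).coeff e) * _ = _
      ring
    rw [h2, h4, h5] at h3
    rw [map_add, ← h3]
    have h6 := add_self' (io (n + 1) (sh n Y))
    linear_combination -h6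

/-- `St` is `x_i ↦ x_{i+1}^2 + x_0 x_{i+1}` -/
noncomputable def StS (n : ℕ) : S n →ₐ[ZMod 2] S (n + 1) :=
  MvPolynomial.aeval (tws (fun i => (MvPolynomial.X i : S (n + 1))))

lemma StS_io {n : ℕ} (Y : D n) :
    StS n (io n Y) = (sv n Y).eval₂ ((io (n + 1) : D (n + 1) →ₐ[ZMod 2] S (n + 1)) :
      D (n + 1) →+* S (n + 1)) (MvPolynomial.X 0) := by
  have h := ev_tws (fun i => (MvPolynomial.X i : S (n + 1))) Y
  have h2 : StS n (io n Y) = ev (tws (fun i => (MvPolynomial.X i : S (n + 1)))) Y := by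
    have h3 := ev_map (StS n) (fun i : Fin n => (MvPolynomial.X i : S n)) Y
    have h4 : (fun i : Fin n => StS n (MvPolynomial.X i)) =
        tws (fun i => (MvPolynomial.X i : S (n + 1))) := by
      funext i; rw [StS, MvPolynomial.aeval_X]
    rw [h4] at h3
    exact h3
  rw [h2, h]
  rfl

/-- The transform of `St (Y)` by an invertible matrix `M` is `St_v (Y)` with `v` the image of
`x_0`. -/
theorem StS_lin {n : ℕ} (M N : Matrix (Fin (n + 1)) (Fin (n + 1)) (ZMod 2)) (h : M * N = 1)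
    (Y : D n) :
    MvPolynomial.aeval (lin M (fun i => (MvPolynomial.X i : S (n + 1)))) (StS n (io n Y)) =
      (sv n Y).eval₂ ((io (n + 1) : D (n + 1) →ₐ[ZMod 2] S (n + 1)) : D (n + 1) →+* S (n + 1))
        (lf (M 0) (fun i => (MvPolynomial.X i : S (n + 1)))) := by
  rw [StS_io]
  set g : S (n + 1) →ₐ[ZMod 2] S (n + 1) :=
    MvPolynomial.aeval (lin M (fun i => (MvPolynomial.X i : S (n + 1)))) with hg
  have h1 : g (eval₂ ((io (n + 1) : D (n + 1) →ₐ[ZMod 2] S (n + 1)) :
      D (n + 1) →+* S (n + 1)) (MvPolynomial.X 0) (sv n Y)) =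
      eval₂ ((g : S (n + 1) →+* S (n + 1)).comp ((io (n + 1) : D (n + 1) →ₐ[ZMod 2] S (n + 1)) :
        D (n + 1) →+* S (n + 1))) (g (MvPolynomial.X 0)) (sv n Y) :=
    hom_eval₂ _ _ (g : S (n + 1) →+* S (n + 1)) _
  rw [h1]
  have h2 : (g : S (n + 1) →+* S (n + 1)).comp ((io (n + 1) : D (n + 1) →ₐ[ZMod 2] S (n + 1)) :
      D (n + 1) →+* S (n + 1)) = ((io (n + 1) : D (n + 1) →ₐ[ZMod 2] S (n + 1)) :
      D (n + 1) →+* S (n + 1)) := by
    refine RingHom.ext fun f => ?_
    show g (io (n + 1) f) = io (n + 1) f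
    have h3 := ev_map g (fun i : Fin (n + 1) => (MvPolynomial.X i : S (n + 1))) f
    have h4 : (fun i : Fin (n + 1) => g (MvPolynomial.X i)) =
        lin M (fun i => (MvPolynomial.X i : S (n + 1))) := by
      funext i; rw [hg, MvPolynomial.aeval_X]
    rw [h4, ev_lin M N h] at h3
    exact h3
  have h5 : g (MvPolynomial.X 0) = lf (M 0) (fun i => (MvPolynomial.X i : S (n + 1))) := by
    rw [hg, MvPolynomial.aeval_X]; rfl
  rw [h2, h5]

/-- The sum over the nonzero linear forms, with a choice of linear automorphisms. -/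
theorem sum_StS {n : ℕ} {k : ℤ} (Y : D n) (hY : Hom n k Y)
    (M N : (Fin (n + 1) → ZMod 2) → Matrix (Fin (n + 1)) (Fin (n + 1)) (ZMod 2))
    (hMN : ∀ v, v ≠ 0 → M v * N v = 1) (hM : ∀ v, v ≠ 0 → M v 0 = v) :
    ∃ Z : D (n + 1), Hom (n + 1) (2 * k - (2 ^ (n + 1) - 1)) Z ∧
      ∑ v ∈ univ.erase (0 : Fin (n + 1) → ZMod 2),
        MvPolynomial.aeval (lin (M v) (fun i => (MvPolynomial.X i : S (n + 1))))
          (StS n (io n Y)) = io (n + 1) (sh n Y + q (n + 1) 0 * Z) := by
  obtain ⟨Z, hZ, h⟩ := sum_St Y hY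
  refine ⟨Z, hZ, ?_⟩
  rw [← h]
  refine Finset.sum_congr rfl fun v hv => ?_
  have hv' : v ≠ 0 := Finset.ne_of_mem_erase hv
  rw [StS_lin (M v) (N v) (hMN v hv') Y, hM v hv']

end Vale.Agent.P263.TI
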