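import Vale.Agent.P263.TI.Defs

/-!
# P263, section [I]: from the extension `E` (section [E]) to `Psi` and `Phi`

`EOut T n d phi`: the output of section [E]. `E q` is `H^q(K)`, `Sq q j = Sq^(j-q)`, `rho` is the
restriction to `H^*(BW_n)`, `lam` is any functional on `E^(d+1)` (with value `1` on `ι`).
`Sq^0 = 1` is only needed on `H^q(BW_n)`, `q ≤ d`.
-/

namespace Vale.Agent.P263.TI

open Polynomial Vale.Agent.P263.EX

universe v

/-- The output of section [E]. -/
structure EOut (T : Tower) (n d : ℕ) (phi : T.H (n + 1) d →ₗ[ZMod 2] ZMod 2) where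
  /-- `E q = H^q(K)` -/
  E : ℕ → Type v
  [grp : ∀ q, AddCommGroup (E q)]
  [mod : ∀ q, Module (ZMod 2) (E q)]
  /-- `Sq q j = Sq^(j-q)` -/
  Sq : ∀ q j, E q →ₗ[ZMod 2] E j
  /-- restriction to `BW_n` -/
  rho : ∀ q, E q →ₗ[ZMod 2] T.H n q
  rho_surj : ∀ q, q ≤ d → Function.Surjective (rho q)
  ker : ∀ q, q ≤ d → ∀ x : E q, rho q x = 0 → Sq q (d + 1) x = 0
  rho_Sq : ∀ (q a j : ℕ) (h : q + a = j), j ≤ d → ∀ x : E q,
    rho j (Sq q j x) = T.sq n a q j h (rho q x)
  rho_Sq0 : ∀ q, q ≤ d → ∀ x : E q, rho q (Sq q q x) = rho q x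
  /-- a functional on `E^(d+1)` -/
  lam : E (d + 1) →ₗ[ZMod 2] ZMod 2
  /-- the Bullett-Macdonald relations with values in `E^(d+1)` -/
  bm : ∀ M q : ℕ, 1 ≤ M → q + M = d + 1 → ∀ x : E q,
    ∑ a ∈ Finset.range (M + 1), C (lam (Sq (q + (M - a)) (d + 1) (Sq q (q + (M - a)) x))) *
      BM.wt (ZMod 2) a (M - a) = 0
  /-- the relation of Lannes-Zarati -/
  lz : ∀ (j q : ℕ) (h : j + 2 * q = d) (x : E q),
    lam (Sq q (d + 1) x) = phi (T.up n j q d h (rho q x))

attribute [instance] EOut.grp EOut.mod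

namespace EOut

variable {T : Tower} {n d : ℕ} {phi : T.H (n + 1) d →ₗ[ZMod 2] ZMod 2} (e : EOut.{v} T n d phi)

/-- a linear section of `rho` -/
lemma exists_sec (q : ℕ) (h : q ≤ d) : ∃ σ : T.H n q →ₗ[ZMod 2] e.E q,
    (e.rho q).comp σ = LinearMap.id :=
  (e.rho q).exists_rightInverse_of_surjective (LinearMap.range_eq_top.2 (e.rho_surj q h))

/-- a linear section of `rho` -/
noncomputable def sec (q : ℕ) (h : q ≤ d) : T.H n q →ₗ[ZMod 2] e.E q := (e.exists_sec q h).choose

lemma rho_sec {q : ℕ} (h : q ≤ d) (y : T.H n q) : e.rho q (e.sec q h y) = y :=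
  DFunLike.congr_fun (e.exists_sec q h).choose_spec y

/-- the functional `λ Sq^a (lift)` -/
noncomputable def psiF (a q : ℕ) (_h : q + a = d + 1) : T.H n q →ₗ[ZMod 2] ZMod 2 :=
  if h0 : q ≤ d then e.lam.comp ((e.Sq q (d + 1)).comp (e.sec q h0)) else 0

lemma psiF_zero (q : ℕ) (h : q + 0 = d + 1) (y : T.H n q) : e.psiF 0 q h y = 0 := by
  rw [psiF, dif_neg (by omega), LinearMap.zero_apply]

lemma psiF_rho {a q : ℕ} (h : q + a = d + 1) (ha : 1 ≤ a) (x : e.E q) :
    e.psiF a q h (e.rho q x) = e.lam (e.Sq q (d + 1) x) := by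
  have h0 : q ≤ d := by omega
  rw [psiF, dif_pos h0, LinearMap.comp_apply, LinearMap.comp_apply]
  have h1 := e.ker q h0 (e.sec q h0 (e.rho q x) - x)
    (by rw [map_sub, e.rho_sec h0, sub_self])
  rw [map_sub, sub_eq_zero] at h1
  rw [h1]

lemma bm_zero {M q : ℕ} (hM : 1 ≤ M) (h : q + M = d + 1) (x : e.E q) :
    e.lam (e.Sq (q + (M - 0)) (d + 1) (e.Sq q (q + (M - 0)) x)) = e.lam (e.Sq q (d + 1) x) := by
  have h1 := congrArg (fun p => Polynomial.coeff p 0) (e.bm M q hM h x)
  simp only [Polynomial.finsetSum_coeff, Polynomial.coeff_C_mul, Polynomial.coeff_zero] at h1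
  have h2 : ∀ a b : ℕ, a + b = M → (BM.wt (ZMod 2) a b).coeff 0 =
      if a = 0 ∨ b = 0 then 1 else 0 := by
    intro a b hab
    rw [BM.wt, Polynomial.coeff_add, Polynomial.mul_coeff_zero, Polynomial.mul_coeff_zero]
    have e1 : ((1 + X : (ZMod 2)[X]) ^ a).coeff 0 = 1 := by
      rw [Polynomial.coeff_zero_eq_eval_zero]; simp
    rw [e1, one_mul, mul_one, Polynomial.coeff_X_pow, Polynomial.coeff_X_pow]
    rcases Nat.eq_zero_or_pos a with rfl | ha
    · have hb : b ≠ 0 := by omega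
      rw [if_neg (by omega), if_pos rfl, if_pos (Or.inl rfl), zero_add]
    · rcases Nat.eq_zero_or_pos b with rfl | hb
      · rw [if_pos (by omega), if_neg (by omega), if_pos (Or.inr rfl), add_zero]
      · rw [if_neg (by omega), if_neg (by omega), if_neg (by omega), add_zero]
  rw [Finset.sum_congr rfl (fun a ha => by
    rw [h2 a (M - a) (by have := Finset.mem_range.1 ha; omega)])] at h1
  rw [Finset.sum_range_succ', if_pos (Or.inl rfl), mul_one,
    Finset.sum_eq_single_of_mem (M - 1) (Finset.mem_range.2 (by omega)) (fun k hk hk' => by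
      rw [if_neg (by have := Finset.mem_range.1 hk; omega), mul_zero])] at h1
  have h3 : ∀ p, p = q → e.lam (e.Sq p (d + 1) (e.Sq q p x)) = e.lam (e.Sq q (d + 1) x) := by
    intro p hp
    subst hp
    have h4 := e.ker p (by omega) (e.Sq p p x - x)
      (by rw [map_sub, e.rho_Sq0 p (by omega), sub_self])
    rw [map_sub, sub_eq_zero] at h4
    rw [h4]
  rw [if_pos (by omega), mul_one, h3 _ (by omega)] at h1
  have h5 : ∀ a b : ZMod 2, a + b = 0 → b = a := by decide
  exact h5 _ _ h1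

/-- the cocycle -/
noncomputable def toPsi : Psi T n (d + 1) where
  psi := e.psiF
  psi_zero h y := e.psiF_zero _ h y
  bm := by
    intro M q h y
    rcases Nat.eq_zero_or_pos M with rfl | hM
    · rw [e.psiF_zero, C_0, zero_mul, add_zero]
      refine Finset.sum_eq_zero (fun a _ => ?_)
      have ha : (a : ℕ) = 0 := by have := a.2; omega
      have h1 : ∀ (b p : ℕ) (hb : b = 0) (hp : p + b = d + 1) (z : T.H n p),
          e.psiF b p hp z = 0 := by
        intro b p hb hp z
        subst hb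
        exact e.psiF_zero p hp z
      rw [h1 _ _ ha, C_0, zero_mul]
    · obtain ⟨x, rfl⟩ := e.rho_surj q (by omega) y
      rw [← e.bm M q hM h x, Fin.sum_univ_succ, Finset.sum_range_succ']
      have h0 : e.psiF ((0 : Fin (M + 1)) : ℕ) (q + (M - ((0 : Fin (M + 1)) : ℕ))) (by simpa using h)
          (T.sq n (M - ((0 : Fin (M + 1)) : ℕ)) q (q + (M - ((0 : Fin (M + 1)) : ℕ))) rfl
            (e.rho q x)) = 0 := e.psiF_zero _ _ _
      rw [h0, C_0, zero_mul, zero_add, e.psiF_rho h hM, e.bm_zero hM h, Finset.sum_range]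
      congr 1
      refine Finset.sum_congr rfl (fun a _ => ?_)
      have ha := a.2
      have h3 : T.sq n (M - ((a : ℕ) + 1)) q (q + (M - ((a : ℕ) + 1))) rfl (e.rho q x) =
          e.rho _ (e.Sq q (q + (M - ((a : ℕ) + 1))) x) :=
        (e.rho_Sq q _ _ rfl (by omega) x).symm
      have h4 := e.psiF_rho (a := (a : ℕ) + 1) (q := q + (M - ((a : ℕ) + 1))) (by omega)
        (by omega) (e.Sq q (q + (M - ((a : ℕ) + 1))) x)
      rw [← h3] at h4
      exact congrArg (fun t => C t * BM.wt (ZMod 2) ((a : ℕ) + 1) (M - ((a : ℕ) + 1))) h4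

/-- the relation of Lannes-Zarati -/
noncomputable def toPhi : Phi T n d e.toPsi where
  phi := phi
  lz := by
    intro j q h y
    obtain ⟨x, rfl⟩ := e.rho_surj q (by omega) y
    have h1 := e.psiF_rho (a := q + 1 + j) (q := q) (by omega) (by omega) x
    exact h1.trans (e.lz j q h x)

/-- The conclusion in the form of the glue. -/
theorem exists_psi_phi (e : EOut.{v} T n d phi) :
    ∃ P : Psi T n (d + 1), ∃ F : Phi T n d P, F.phi = phi := ⟨e.toPsi, e.toPhi, rfl⟩

end EOut

end Vale.Agent.P263.TI
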