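import Vale.Agent.P263.EX.BM

/-!
P263, section I (helper387): the `R_1` formula from the Bullett-Macdonald relations.

`s : ℕ → End T` satisfies the Bullett-Macdonald relations and `x : T` is killed by `s l`, `l > q`.
On `T[u]` (finitely supported families `ℕ →₀ T`) with `Sq(u) = u + u^2` the element
`u^j St(x) = ∑_i u^(j+q-i) s_i x` satisfies
`s_a (u^j St(x)) = ∑_l C(j+q-l, a-2l) u^(j+a-2l) St(s_l x)`.
-/

namespace Vale.Agent.P263.TI

open Polynomial Finset Vale.Agent.P263.EX

section scalar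

/-- scalar form: if `∑_i g(i) wt(N-i, i) = 0` and `g(i) = 0` for `i > q`, `q ≤ e`, then
`∑_i g(i) (1+w)^(e-i) (w^(N-i) + w^(2i)) = 0`. -/
theorem scalar_R1 (N q e : ℕ) (g : ℕ → ZMod 2) (hg : ∀ i, q < i → g i = 0) (he : q ≤ e)
    (h : ∑ i ∈ range (N + 1), C (g i) * BM.wt (ZMod 2) (N - i) i = 0) :
    ∑ i ∈ range (N + 1), C (g i) * ((1 + X) ^ (e - i) * (X ^ (N - i) + X ^ (2 * i))) = 0 := by
  have hne : ((1 : (ZMod 2)[X]) + X) ^ N ≠ 0 := by
    apply pow_ne_zero
    rw [add_comm]
    exact (monic_X_add_C (1 : ZMod 2)).ne_zero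
  apply mul_left_cancel₀ hne
  rw [mul_zero]
  have h2 : ((1 : (ZMod 2)[X]) + X) ^ e * ∑ i ∈ range (N + 1), C (g i) * BM.wt (ZMod 2) (N - i) i
      = 0 := by rw [h, mul_zero]
  rw [← h2, Finset.mul_sum, Finset.mul_sum]
  refine Finset.sum_congr rfl fun i hi => ?_
  rcases Nat.lt_or_ge q i with hq | hq
  · rw [hg i hq]; simp
  · have hi' : i ≤ N := by have := mem_range.mp hi; omega
    obtain ⟨k, rfl⟩ : ∃ k, N = i + k := ⟨N - i, by omega⟩
    obtain ⟨l, rfl⟩ : ∃ l, e = i + l := ⟨e - i, by omega⟩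
    have e1 : i + k - i = k := by omega
    have e2 : i + l - i = l := by omega
    unfold BM.wt
    rw [e1, e2, pow_add, pow_add]
    ring

end scalar

variable {T : Type*} [AddCommGroup T] [Module (ZMod 2) T]

/-- the coefficient of `w^a` in `(1+w)^n w^k` -/
def bc (n k a : ℕ) : ℕ := if k ≤ a then n.choose (a - k) else 0

theorem coeff_bc (n k a : ℕ) : (((1 : (ZMod 2)[X]) + X) ^ n * X ^ k).coeff a = (bc n k a : ZMod 2) := by
  rw [coeff_mul_X_pow']
  unfold bc
  split_ifs
  · rw [coeff_one_add_X_pow]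
  · simp

/-- the vector form of the `R_1` identity -/
theorem vector_R1 {s : ℕ → Module.End (ZMod 2) T} (hs : BM.Rel s) (N q e a : ℕ) (x : T)
    (hx : ∀ l, q < l → s l x = 0) (he : q ≤ e) :
    ∑ i ∈ range (N + 1), ((bc (e - i) (N - i) a + bc (e - i) (2 * i) a : ℕ) : ZMod 2) •
      s (N - i) (s i x) = 0 := by
  rw [← Module.forall_dual_apply_eq_zero_iff (ZMod 2)]
  intro φ
  have hbm : ∑ i ∈ range (N + 1), C (φ (s (N - i) (s i x))) * BM.wt (ZMod 2) (N - i) i = 0 := by
    ext j
    have h := congrArg (fun F : Module.End (ZMod 2) T => φ (F x)) (hs.coeff N j)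
    simp only [LinearMap.zero_apply, map_zero] at h
    rw [LinearMap.sum_apply, map_sum] at h
    rw [finsetSum_coeff, coeff_zero, ← h, ← Finset.sum_range_reflect]
    refine Finset.sum_congr rfl fun i hi => ?_
    have hi' := mem_range.mp hi
    have i1 : N + 1 - 1 - i = N - i := by omega
    have i2 : N - (N - i) = i := by omega
    rw [BM.coeff_wt, i1, i2, ← mul_add, ← Nat.cast_add, ← Nat.cast_add]
    generalize (if 2 * (N - i) ≤ j then i.choose (j - 2 * (N - i)) else 0) + BM.cc i j = k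
    rw [Module.End.mul_apply, Module.End.mul_apply, Module.End.natCast_apply, map_nsmul, map_nsmul,
      map_nsmul, nsmul_eq_mul, mul_comm]
  have h := scalar_R1 N q e (fun i => φ (s (N - i) (s i x)))
    (fun i hi => by rw [hx i hi, map_zero, map_zero]) he hbm
  have h2 := congrArg (fun p : (ZMod 2)[X] => p.coeff a) h
  simp only [finsetSum_coeff, coeff_zero] at h2
  rw [map_sum, ← h2]
  refine Finset.sum_congr rfl fun i _ => ?_
  rw [map_smul, coeff_C_mul, mul_add, coeff_add, coeff_bc, coeff_bc, smul_eq_mul]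
  push_cast
  ring

end Vale.Agent.P263.TI
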