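import Vale.Agent.P263.TI.Defs
import Vale.Agent.P263.TI.PowSum

/-!
# P263, section [I]: the interface (TOP), restriction to the elementary abelian subgroup

`Top T n d phi`: the functional `phi` on `H^d(BW_{n+1})` comes from a functional `xi` on the Dickson
algebra `D (n+1)` which kills the positive squares. `sv n Y` evaluated at a linear form `v ≠ 0` is
`St_v(Y)` (`StS_lin` in `PowSum.lean`: the transform of `St (io Y)` by any invertible matrix with
first row `v`).
-/

namespace Vale.Agent.P263.TI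

open Finset Polynomial Vale.Agent.P263.LZ Vale.Agent.P263.EX Vale.Agent.P263.EX.DS
open Vale.Agent.P263.EX.GE

/-- `St_v (Y)` for a linear form `v` -/
noncomputable def Stv (n : ℕ) (v : Fin (n + 1) → ZMod 2) (Y : D n) : S (n + 1) :=
  (sv n Y).eval₂ ((io (n + 1) : D (n + 1) →ₐ[ZMod 2] S (n + 1)) : D (n + 1) →+* S (n + 1))
    (lf v (fun i => (MvPolynomial.X i : S (n + 1))))

/-- The functional `phi` on `H^d(BW_{n+1})` comes from a functional on the Dickson algebra. -/
structure Top (T : Tower) (n d : ℕ) (phi : T.H (n + 1) d →ₗ[ZMod 2] ZMod 2) where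
  /-- the functional on the Dickson algebra -/
  xi : D (n + 1) →ₗ[ZMod 2] ZMod 2
  xi_supp : ∀ (k : ℤ) (G : D (n + 1)), Hom (n + 1) k G → k ≠ d → xi G = 0
  xi_sq : ∀ (b : ℕ) (G : D (n + 1)), 1 ≤ b → xi (s (n + 1) 0 b G) = 0
  phi_io : ∀ (w : T.H (n + 1) d) (G : D (n + 1)), T.r (n + 1) d w = io (n + 1) G → phi w = xi G
  phi_up : ∀ (c : ℕ) (h : 0 + 2 * c = d) (y : T.H n c) (Y : D n) (G : D (n + 1)),
    T.r n c y = io n Y →
    io (n + 1) G = ∑ v ∈ univ.erase (0 : Fin (n + 1) → ZMod 2), Stv n v Y →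
    phi (T.up n 0 c d h y) = xi G

/-- `sum_St` in the form used with `Top`. -/
theorem sum_Stv {n : ℕ} {k : ℤ} (Y : D n) (hY : Hom n k Y) :
    ∃ Z : D (n + 1), Hom (n + 1) (2 * k - (2 ^ (n + 1) - 1)) Z ∧
      io (n + 1) (sh n Y + q (n + 1) 0 * Z) =
        ∑ v ∈ univ.erase (0 : Fin (n + 1) → ZMod 2), Stv n v Y := by
  obtain ⟨Z, hZ, h⟩ := sum_St Y hY
  exact ⟨Z, hZ, h.symm⟩

end Vale.Agent.P263.TI
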