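import Vale.Agent.P263.TI.Final

/-!
P263, sections [I] and [K] (helper51): in the cases `n = 0` and `n = 1` the functional `xi` is
unique (if it is not zero), explicitly:

* `n = 0`: `xi (q_0 ^ d) = 1`;
* `n = 1`: `xi (q_0 G) = 0` and `xi (q_1 ^ c) = 1`, `d = 2 c`, `c + 1 = 2 ^ s`.
-/

namespace Vale.Agent.P263.TI

open Polynomial Vale.Agent.P263.LZ Vale.Agent.P263.EX Vale.Agent.P263.EX.GE

lemma lin_ext_mo {n : ℕ} {f g : D n →ₗ[ZMod 2] ZMod 2} (h : ∀ e, f (mo e) = g (mo e)) : f = g :=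
  LinearMap.toAddMonoidHom_injective (addHom_ext h)

/-! ### `xi` is determined by `phi`, additivity -/

lemma Top.xi_mo_ne {T : Tower} {n d : ℕ} {phi : T.H (n + 1) d →ₗ[ZMod 2] ZMod 2}
    (t : Top T n d phi) {e : Fin (n + 1) →₀ ℕ} (he : wtm e ≠ d) : t.xi (mo e) = 0 :=
  t.xi_supp (wtm e) _ (hom_mo e) he

/-- two functionals on the Dickson algebra of degree `d` agree if they agree with the same
functional on the cohomology -/
theorem Top.xi_ext {T : Tower} {n d : ℕ} {phi : T.H (n + 1) d →ₗ[ZMod 2] ZMod 2}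
    (t : Top T n d phi) {f : D (n + 1) →ₗ[ZMod 2] ZMod 2}
    (hf : ∀ (k : ℤ) (G : D (n + 1)), Hom (n + 1) k G → k ≠ d → f G = 0)
    (h : ∀ (w : T.H (n + 1) d) (G : D (n + 1)), T.r (n + 1) d w = io (n + 1) G → phi w = f G) :
    t.xi = f := by
  refine lin_ext_mo fun e => ?_
  by_cases he : wtm e = d
  · obtain ⟨w, hw⟩ := exists_lift T (n + 1) d (mo e) (by rw [← he]; exact hom_mo e)
    rw [← t.phi_io w _ hw, h w _ hw]
  · rw [t.xi_mo_ne he, hf _ _ (hom_mo e) he]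

/-- `xi` is additive in `phi`. -/
theorem Top.xi_add {T : Tower} {n d : ℕ} {phi phi' : T.H (n + 1) d →ₗ[ZMod 2] ZMod 2}
    (t : Top T n d phi) (t' : Top T n d phi') (t'' : Top T n d (phi + phi')) :
    t''.xi = t.xi + t'.xi := by
  refine t''.xi_ext (fun k G hG hk => ?_) (fun w G hw => ?_)
  · rw [LinearMap.add_apply, t.xi_supp k G hG hk, t'.xi_supp k G hG hk, add_zero]
  · rw [LinearMap.add_apply, LinearMap.add_apply, t.phi_io w G hw, t'.phi_io w G hw]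

/-! ### `n = 0` -/

lemma Top.xi_one_mo {T : Tower} {d : ℕ} {phi : T.H 1 d →ₗ[ZMod 2] ZMod 2} (t : Top T 0 d phi)
    {e : Fin 1 →₀ ℕ} (he : e 0 ≠ d) : t.xi (mo e) = 0 := by
  refine t.xi_supp (wtm e) _ (hom_mo e) ?_
  rw [wtm_one]
  exact_mod_cast he

/-- `n = 0`: the value at `q_0 ^ d` is one. -/
theorem Top.xi_one_val {T : Tower} {d : ℕ} {phi : T.H 1 d →ₗ[ZMod 2] ZMod 2} (t : Top T 0 d phi)
    (hxi : t.xi ≠ 0) : t.xi (q 1 0 ^ d) = 1 := by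
  obtain ⟨e, he⟩ := exists_mo_ne hxi
  have hd : e 0 = d := by
    by_contra hne
    exact he (t.xi_one_mo hne)
  rw [D1_mo, hd] at he
  rcases zmod2 (t.xi (q 1 0 ^ d)) with h | h
  · exact absurd h he
  · exact h

/-- `n = 0`: `xi` is unique. -/
theorem Top.xi_one_uniq {T T' : Tower} {d : ℕ} {phi : T.H 1 d →ₗ[ZMod 2] ZMod 2}
    {phi' : T'.H 1 d →ₗ[ZMod 2] ZMod 2} (t : Top T 0 d phi) (t' : Top T' 0 d phi')
    (hxi : t.xi ≠ 0) (hxi' : t'.xi ≠ 0) : t.xi = t'.xi := by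
  refine lin_ext_mo fun e => ?_
  by_cases he : e 0 = d
  · rw [D1_mo, he, t.xi_one_val hxi, t'.xi_one_val hxi']
  · rw [t.xi_one_mo he, t'.xi_one_mo he]

/-! ### `n = 1` -/

lemma Top.y0_one_mo {T : Tower} {c : ℕ} {phi : T.H 2 (2 * c) →ₗ[ZMod 2] ZMod 2}
    (t : Top T 1 (2 * c) phi) {e : Fin 1 →₀ ℕ} (he : e 0 ≠ c) : t.y0 (mo e) = 0 := by
  refine t.y0_supp (hom_mo e) ?_
  rw [wtm_one]
  intro h
  apply he
  push_cast at h
  omega

/-- `n = 1`: the value at `q_1 ^ c` is one. -/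
theorem Top.xi_two_val {T : Tower} {c : ℕ} {phi : T.H 2 (2 * c) →ₗ[ZMod 2] ZMod 2}
    (t : Top T 1 (2 * c) phi) (h0 : ∀ G : D 2, t.xi (q 2 0 * G) = 0) (hxi : t.xi ≠ 0) :
    t.xi (q 2 1 ^ c) = 1 := by
  obtain ⟨e, he⟩ := exists_mo_ne (t.y0_ne h0 hxi)
  have hd : e 0 = c := by
    by_contra hne
    exact he (t.y0_one_mo hne)
  rw [D1_mo, hd, Top.y0_apply, map_pow, sh_q] at he
  rcases zmod2 (t.xi (q 2 1 ^ c)) with h | h
  · exact absurd h he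
  · exact h

/-- `n = 1`: `xi` is unique. -/
theorem Top.xi_two_uniq {T T' : Tower} {d : ℕ} {phi : T.H 2 d →ₗ[ZMod 2] ZMod 2}
    {phi' : T'.H 2 d →ₗ[ZMod 2] ZMod 2} (t : Top T 1 d phi) (t' : Top T' 1 d phi')
    (h0 : ∀ G : D 2, t.xi (q 2 0 * G) = 0) (h0' : ∀ G : D 2, t'.xi (q 2 0 * G) = 0)
    (hxi : t.xi ≠ 0) (hxi' : t'.xi ≠ 0) : t.xi = t'.xi := by
  obtain ⟨c, hc⟩ := t.even h0 hxi
  subst hc
  have h1 : t.y0 = t'.y0 := by
    refine lin_ext_mo fun e => ?_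
    by_cases he : e 0 = c
    · have h2 := t.xi_two_val h0 hxi
      have h2' := t'.xi_two_val h0' hxi'
      rw [D1_mo, he, Top.y0_apply, Top.y0_apply, map_pow, sh_q, h2, h2']
    · rw [t.y0_one_mo he, t'.y0_one_mo he]
  refine LinearMap.ext fun x => ?_
  rw [t.xi_eq h0, t'.xi_eq h0', h1]

/-- **The case `n = 1` with the form of `xi`**: `d = 2 c`, `c + 1 = 2 ^ s`, `xi` kills the
multiples of `q_0` and `xi (q_1 ^ c) = 1`. -/
theorem I_two_form {T : Tower} {d : ℕ} (P : Psi T 1 (d + 1)) (F : Phi T 1 d P)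
    (t : Top T 1 d F.phi) (hxi : t.xi ≠ 0) :
    ∃ c s, d = 2 * c ∧ c + 1 = 2 ^ s ∧ (∀ G : D 2, t.xi (q 2 0 * G) = 0) ∧
      t.xi (q 2 1 ^ c) = 1 := by
  have h0 : ∀ G : D 2, t.xi (q 2 0 * G) = 0 := fun G => xi_q0 le_rfl P F t G
  obtain ⟨c, hc⟩ := t.even h0 hxi
  subst hc
  obtain ⟨s, hs⟩ := I_two P F t hxi
  refine ⟨c, s, rfl, ?_, h0, t.xi_two_val h0 hxi⟩
  rw [pow_succ] at hs
  omega

/-- **The case `n = 0` with the form of `xi`**. -/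
theorem I_one_form {T : Tower} {d : ℕ} (P : Psi T 0 (d + 1)) (F : Phi T 0 d P)
    (t : Top T 0 d F.phi) (hxi : t.xi ≠ 0) :
    ∃ s, d + 1 = 2 ^ s ∧ t.xi (q 1 0 ^ d) = 1 := by
  obtain ⟨s, hs⟩ := I_one P F t hxi
  exact ⟨s, hs, t.xi_one_val hxi⟩

end Vale.Agent.P263.TI
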